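import Vale.Agent.P256.H201.C3b

/-! The last case of the local analysis in four variables (case 5c(iii)): a real symmetric pencil
`x 1 + b B + D + a G₁ + a² H` whose kernel vector `ξ` approaches `ξ₀` with
`B ξ / ε → μ G₁ ξ₀`, `a / ε → 0`. -/

set_option linter.all false

namespace Vale.Agent.P256.H201

open Filter Topology Matrix Vale.Agent.P256 Vale.Agent.P256.H326 Vale.Agent.P256.H387

variable {L X ι : Type*} [Fintype ι] [DecidableEq ι] {U : Ultrafilter L} {V : Ultrafilter X}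

namespace C3D

variable {R : PF U V ι} (T : C3D R)

theorem hI : EqF (U : Filter L) (V : Filter X)
    (fun u v => T.μ * T.κ ^ 2 * (T.XL u ^ 2 / R.aL u) * (R.aX v - R.aL u))
    (fun u v => T.om u * T.l v * T.Fe u v + T.μ * T.κ * T.XL u * T.Fk u v -
      T.rho u * T.p v * T.F0 u v -
      (R.aX v - R.aL u) * R.aX v * T.sig u - R.aX v ^ 2 * T.Dd u v) := by
  refine EqF.of_eventually _ _ ((T.rows.and T.apos).and (R.ker.and R.nrm)) (T.pF0.and T.lFe)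
    fun u v hu hv => ?_
  obtain ⟨⟨⟨R0, Rk, Re⟩, ha⟩, hker, hn⟩ := hu
  obtain ⟨h1, h2⟩ := hv
  have h1 := h1 u
  have h2 := h2 u
  have hS : R.aL u * (T.om u * T.g1e u + T.μ * T.κ * T.XL u * T.g1k u +
      T.rho u * (T.κ * T.XL u) + R.aL u * T.sig u) = T.μ * T.κ ^ 2 * T.XL u ^ 2 := by
    unfold sig rho
    linear_combination T.om u * Re + T.μ * T.κ * T.XL u * Rk -
      (T.om u * T.ee u + T.μ * T.κ * T.XL u * T.kx u) * R0
  have hS' : T.μ * T.κ ^ 2 * (T.XL u ^ 2 / R.aL u) =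
      T.om u * T.g1e u + T.μ * T.κ * T.XL u * T.g1k u + T.rho u * (T.κ * T.XL u) +
        R.aL u * T.sig u := by
    rw [← mul_div_assoc, ← hS, mul_div_assoc, mul_comm, div_mul_cancel₀ _ ha.ne']
  have e0 : T.om u * T.l v * T.Fe u v = T.om u * (T.eh ⬝ᵥ (R.MX v *ᵥ R.ξ u)) := by
    rw [← h2]; ring
  have e1 : T.rho u * T.p v * T.F0 u v = T.rho u * (R.ξ0 ⬝ᵥ (R.MX v *ᵥ R.ξ u)) := by
    rw [← h1]; ring
  have e2 : T.Fk u v = T.k ⬝ᵥ (R.MX v *ᵥ R.ξ u) := rfl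
  show T.μ * T.κ ^ 2 * (T.XL u ^ 2 / R.aL u) * (R.aX v - R.aL u) = _
  rw [hS', e0, e1, e2, R.exp hker v T.eh, R.exp hker v T.k, R.exp hker v R.ξ0, T.sBe, R.sB0,
    T.sG0, hn]
  unfold sig rho Dd om ee kx g1e g1k he hk' h0
  unfold rho om ee kx
  ring

theorem hIII : ∃ (c1 c2 c3 : L → X → ℝ) (k1 k2 k3 : ℝ),
    GermFR (U : Filter L) (V : Filter X) c1 k1 ∧ GermFR (U : Filter L) (V : Filter X) c2 k2 ∧
    GermFR (U : Filter L) (V : Filter X) c3 k3 ∧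
    EqF (U : Filter L) (V : Filter X) (fun u v => T.om u * T.l v)
      (fun u v => c1 u v * T.Fe u v + c2 u v * T.XL u + c3 u v * T.p v) := by
  obtain ⟨B0, tBy⟩ := T.tBy
  rcases T.hq0.eq_or_lt with hq00 | hqpos
  · -- `q = 0`
    refine ⟨fun _ _ => 0, fun _ _ => 0, fun u v => T.om u * Real.sqrt (T.By v), 0, 0, _,
      GermFR.const 0, GermFR.const 0, GermFR.mulfun T.tom
      ((Real.continuous_sqrt.tendsto _).comp tBy), ?_⟩
    refine EqF.of_eventually (fun _ => True) _ (by simp) T.l2 fun u v _ h2 => ?_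
    have h3 : T.l v = T.p v * Real.sqrt (T.By v) := by
      rw [← hq00, mul_zero, zero_add] at h2
      have h4 : T.l v = Real.sqrt (T.l v ^ 2) := (Real.sqrt_sq (T.lnn v)).symm
      rw [h4, h2, Real.sqrt_mul (sq_nonneg _), Real.sqrt_sq (T.pnn v)]
    show T.om u * T.l v = 0 * T.Fe u v + 0 * T.XL u + T.om u * Real.sqrt (T.By v) * T.p v
    rw [h3]; ring
  · -- `q > 0`
    obtain ⟨Q0, hQ, hbl⟩ := T.hbl
    obtain ⟨r0, hr, hpl⟩ := T.hpl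
    obtain ⟨P0, hP, -⟩ := T.hP
    have tg1e : Tendsto T.g1e U (𝓝 (T.eh ⬝ᵥ (R.G1 *ᵥ R.ξ0))) := R.tc R.G1 T.eh
    have gh : GermFR (U : Filter L) (V : Filter X) (fun u v => T.eh ⬝ᵥ (R.HX v *ᵥ R.ξ u))
      (T.eh ⬝ᵥ (R.G2 *ᵥ R.ξ0)) := germ_pairX R.tHX R.tξ T.eh
    refine ⟨fun u _ => T.om u * T.q / T.g1e u,
      fun u v => (T.om u * T.q / T.g1e u) * (T.μ * T.κ * (R.bX v / T.l v)),
      fun u v => (T.om u * T.q / T.g1e u) * ((T.p v / T.l v) * ((T.g1e u / T.q) * T.By v -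
        T.ee u - T.P v ^ 2 * (T.eh ⬝ᵥ (R.HX v *ᵥ R.ξ u)))), _, _, _,
      GermFR.left (T.tw hqpos), (GermFR.left (T.tw hqpos)).mul
        (GermFR.right (hQ.const_mul (T.μ * T.κ))),
      (GermFR.left (T.tw hqpos)).mul ((GermFR.right hr).mul
        (((GermFR.mulfun (tg1e.div_const T.q) tBy).sub (GermFR.left T.tee)).sub
          ((GermFR.right (hP.pow 2)).mul gh))), ?_⟩
    refine EqF.of_eventually _ _ (T.hg1 hqpos) ((T.lFe.and T.l2).and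
      (hpl.and (hbl.and (T.psq.and T.haX)))) fun u v hu hv => ?_
    obtain ⟨⟨h1, h2⟩, h3, h4, h5, h6⟩ := hv
    have h1 := h1 u
    show T.om u * T.l v = (T.om u * T.q / T.g1e u) * T.Fe u v +
      (T.om u * T.q / T.g1e u) * (T.μ * T.κ * (R.bX v / T.l v)) * T.XL u +
      (T.om u * T.q / T.g1e u) * ((T.p v / T.l v) * ((T.g1e u / T.q) * T.By v -
        T.ee u - T.P v ^ 2 * (T.eh ⬝ᵥ (R.HX v *ᵥ R.ξ u)))) * T.p v
    by_cases hl0 : T.l v = 0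
    · have e1 : T.Fe u v = 0 := by
        show ((1 / T.l v) • T.eh) ⬝ᵥ (R.MX v *ᵥ R.ξ u) = 0
        rw [hl0]; simp
      rw [e1, hl0]; simp
    · have e1 : T.l v * T.Fe u v = T.p v ^ 2 * T.ee u - R.bX v * (T.μ * T.κ * T.XL u) +
          R.aX v * T.g1e u + R.aX v ^ 2 * (T.eh ⬝ᵥ (R.HX v *ᵥ R.ξ u)) := by
        rw [h1, R.MX_form, T.sBe, T.sDe, h5]
        unfold ee g1e
        ring
      have e2 : R.aX v ^ 2 * (T.eh ⬝ᵥ (R.HX v *ᵥ R.ξ u)) =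
          T.p v ^ 2 * (T.P v ^ 2 * (T.eh ⬝ᵥ (R.HX v *ᵥ R.ξ u))) := by
        calc _ = (T.P v * T.p v) ^ 2 * (T.eh ⬝ᵥ (R.HX v *ᵥ R.ξ u)) := by rw [← h6]
          _ = _ := by ring
      have e3 : (T.om u * T.q / T.g1e u) * (T.g1e u / T.q) = T.om u := by
        have := hqpos.ne'
        field_simp
      have e6 : (T.om u * T.q / T.g1e u) * (T.g1e u) = T.om u * T.q := by field_simp
      refine mul_left_cancel₀ hl0 ?_
      have e4 : T.l v * ((T.om u * T.q / T.g1e u) * T.Fe u v +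
          (T.om u * T.q / T.g1e u) * (T.μ * T.κ * (R.bX v / T.l v)) * T.XL u +
          (T.om u * T.q / T.g1e u) * ((T.p v / T.l v) * ((T.g1e u / T.q) * T.By v - T.ee u -
            T.P v ^ 2 * (T.eh ⬝ᵥ (R.HX v *ᵥ R.ξ u)))) * T.p v) =
          (T.om u * T.q / T.g1e u) * (T.l v * T.Fe u v +
            T.μ * T.κ * (R.bX v / T.l v * T.l v) * T.XL u +
            (T.p v / T.l v * T.l v) * T.p v * ((T.g1e u / T.q) * T.By v - T.ee u -
            T.P v ^ 2 * (T.eh ⬝ᵥ (R.HX v *ᵥ R.ξ u)))) := by ring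
      rw [e4, ← h3, ← h4, e1, e2]
      have e5 : T.l v * (T.om u * T.l v) = T.om u * T.l v ^ 2 := by ring
      rw [e5, h2]
      generalize T.om u * T.q / T.g1e u = W at e3 e6 ⊢
      linear_combination (-(T.p v ^ 2 * T.By v)) * e3 - R.aX v * e6

end C3D

/-- **Case 5c(iii)**: the goal inequality `α² ≤ C |F|²`. -/
theorem case_c3 (R : PF U V ι) (hg : R.g ≠ 0) {b1 a1 : ℝ} (ha1 : 0 < a1)
    (NC : ∀ v : ι → ℝ, R.D *ᵥ v = 0 → 0 ≤ b1 * (v ⬝ᵥ (R.B *ᵥ v)) + a1 * (v ⬝ᵥ (R.G1 *ᵥ v)))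
    (apos : ∀ᶠ u in (U : Filter L), 0 < R.aL u)
    (txa : Tendsto (fun u => R.xL u / R.aL u) U (𝓝 0))
    {ε : L → ℝ} {μ : ℝ} (hμ : μ ≠ 0) (epos : ∀ᶠ u in (U : Filter L), 0 < ε u)
    (tBε : Tendsto (fun u => (ε u)⁻¹ • (R.B *ᵥ R.ξ u)) U (𝓝 (μ • R.g)))
    (taε : Tendsto (fun u => R.aL u / ε u) U (𝓝 0)) :
    ∃ C : ℝ, 0 < C ∧ SosF (U : Filter L) (V : Filter X)
      (fun u v => C * R.Φ u v - (R.aX v - R.aL u) ^ 2) := by
  obtain ⟨T⟩ := exists_c3d R hg ha1 NC apos txa hμ epos tBε taε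
  obtain ⟨τ0, hτ⟩ := T.hτ
  obtain ⟨P0, hP, -⟩ := T.hP
  obtain ⟨c1, c2, c3, k1, k2, k3, gc1, gc2, gc3, hIII⟩ := T.hIII
  exact core_scalar R.sosΦ T.hκ T.hμ T.haL hτ T.trho T.tsig T.tp hP T.haX T.dF0 T.dFe T.dFk T.hψ
    gc1 gc2 gc3 T.dDd T.hI T.hII hIII

end Vale.Agent.P256.H201
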