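import Vale.Agent.P256.H387.Rep
import Vale.Agent.P256.H858.KzP
import Vale.Agent.P256.H186.Chg

/-! Facts on frames and on the tangent cone used in the assembly of the local theorem. -/

set_option linter.all false

namespace Vale.Agent.P256.H201

open MvPolynomial Filter Topology Matrix Vale.Agent.P256 Vale.Agent.P256.H326 Vale.Agent.P256.H387

section Frames

variable {e z f w : Fin 4 → ℝ}

/-- a coordinate of the frame as a linear map -/
noncomputable def coL (e z f w : Fin 4 → ℝ) (i : Fin 4) : (Fin 4 → ℝ) →ₗ[ℝ] ℝ :=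
  (LinearMap.proj i).comp (Matrix.mulVecLin ((Matrix.of ![z, e, f, w])ᵀ)⁻¹)

theorem coL_apply (i : Fin 4) (y : Fin 4 → ℝ) : coL e z f w i y = co e z f w y i := rfl

theorem co_e (li : LinearIndependent ℝ ![z, e, f, w]) : co e z f w e = ![0, 1, 0, 0] := by
  refine H387.co_unique li ?_
  simp

theorem co_f (li : LinearIndependent ℝ ![z, e, f, w]) : co e z f w f = ![0, 0, 1, 0] := by
  refine H387.co_unique li ?_
  simp

theorem co_w (li : LinearIndependent ℝ ![z, e, f, w]) : co e z f w w = ![0, 0, 0, 1] := by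
  refine H387.co_unique li ?_
  simp

/-- coordinates for the base `f` -/
noncomputable def fr4f (li : LinearIndependent ℝ ![z, e, f, w]) : H858.Fr4 e f w z where
  c0 := coL e z f w 1
  cb := coL e z f w 2
  ca := coL e z f w 3
  ch := coL e z f w 0
  span := fun x => by
    simp only [coL_apply]
    conv_lhs => rw [co_spec li x]
    abel
  c0_eq := by simp only [coL_apply, co_e li, co_f li, co_w li, H387.co_z li]; simp
  cb_eq := by simp only [coL_apply, co_e li, co_f li, co_w li, H387.co_z li]; simp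
  ca_eq := by simp only [coL_apply, co_e li, co_f li, co_w li, H387.co_z li]; simp
  ch_eq := by simp only [coL_apply, co_e li, co_f li, co_w li, H387.co_z li]; simp

/-- coordinates for the base `z` -/
noncomputable def fr4z (li : LinearIndependent ℝ ![z, e, f, w]) : H858.Fr4 e z w f where
  c0 := coL e z f w 1
  cb := coL e z f w 0
  ca := coL e z f w 3
  ch := coL e z f w 2
  span := fun x => by
    simp only [coL_apply]
    conv_lhs => rw [co_spec li x]
    abel
  c0_eq := by simp only [coL_apply, co_e li, co_f li, co_w li, H387.co_z li]; simp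
  cb_eq := by simp only [coL_apply, co_e li, co_f li, co_w li, H387.co_z li]; simp
  ca_eq := by simp only [coL_apply, co_e li, co_f li, co_w li, H387.co_z li]; simp
  ch_eq := by simp only [coL_apply, co_e li, co_f li, co_w li, H387.co_z li]; simp

end Frames

section KzFacts

variable {n : ℕ} {p : MvPolynomial (Fin n) ℝ} {e z : Fin n → ℝ}

theorem Kz_add (hp : IsHyperbolic p e) {v w : Fin n → ℝ} (hv : v ∈ Kz p e z)
    (hw : w ∈ Kz p e z) : v + w ∈ Kz p e z := H858.TC_add hp hv hw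

theorem Kz_smul (hp : IsHyperbolic p e) (hz : z ∈ hypCone p e) {v : Fin n → ℝ}
    (hv : v ∈ Kz p e z) {c : ℝ} (hc : 0 ≤ c) : c • v ∈ Kz p e z := H858.TC_smul hp hz hv hc

/-- the tangent cone contains the line through `z` -/
theorem Kz_z (hp : IsHyperbolic p e) (hz : z ∈ hypCone p e) (c : ℝ) : c • z ∈ Kz p e z := by
  have h := H858.TC_of_mem hp hz hz (c - 1)
  have e1 : z + (c - 1) • z = c • z := by rw [sub_smul, one_smul]; abel
  rwa [e1] at h

theorem Kz_add_z (hp : IsHyperbolic p e) (hz : z ∈ hypCone p e) {v : Fin n → ℝ}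
    (hv : v ∈ Kz p e z) (c : ℝ) : v + c • z ∈ Kz p e z :=
  Kz_add hp hv (Kz_z hp hz c)

theorem Kz_of_mem (hp : IsHyperbolic p e) (hz : z ∈ hypCone p e) {x : Fin n → ℝ}
    (hx : x ∈ hypCone p e) (c : ℝ) : x + c • z ∈ Kz p e z := H858.TC_of_mem hp hz hx c

end KzFacts

section Coords

attribute [local irreducible] co

variable {p : MvPolynomial (Fin 4) ℝ} {e z f w : Fin 4 → ℝ}
  {ι : Type} [Fintype ι] [DecidableEq ι] {B D G1 : Matrix ι ι ℝ} {H DH : ℝ → Matrix ι ι ℝ}

/-- exact first order inequality at every point of the cone, on the kernel of `D` -/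
theorem cone_ineq (hp : IsHyperbolic p e) (hz : z ∈ hypCone p e)
    (li : LinearIndependent ℝ ![z, e, f, w]) (P : IsPen p e f w z B D G1 H DH)
    {x : Fin 4 → ℝ} (hx : x ∈ hypCone p e) (u : ι → ℝ) (hu : D *ᵥ u = 0) :
    0 ≤ co e z f w x 1 * (u ⬝ᵥ u) + co e z f w x 2 * (u ⬝ᵥ (B *ᵥ u)) +
      co e z f w x 3 * (u ⬝ᵥ (G1 *ᵥ u)) := by
  have h1 := Kz_of_mem hp hz hx (-(co e z f w x 0))
  have h2 : x + (-(co e z f w x 0)) • z =
      co e z f w x 1 • e + co e z f w x 2 • f + co e z f w x 3 • w := by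
    have h3 := co_spec li x
    generalize co e z f w x 0 = c0 at *
    generalize co e z f w x 1 = c1 at *
    generalize co e z f w x 2 = c2 at *
    generalize co e z f w x 3 = c3 at *
    rw [h3]
    module
  rw [h2, H858.mem_Kz_f P hz] at h1
  have h3 := h1 u hu
  rw [H858.form_add, H858.form_add, H858.form_smul, H858.form_smul, H858.form_smul,
    Matrix.one_mulVec] at h3
  exact h3

/-- the same in projective coordinates -/
theorem cone_ineq' (hp : IsHyperbolic p e) (hz : z ∈ hypCone p e)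
    (li : LinearIndependent ℝ ![z, e, f, w]) (P : IsPen p e f w z B D G1 H DH)
    {x : Fin 4 → ℝ} (hx : x ∈ hypCone p e) (h0 : 0 < co e z f w x 0) (u : ι → ℝ)
    (hu : D *ᵥ u = 0) :
    0 ≤ (crd e z f w).x0 x * (u ⬝ᵥ u) + (crd e z f w).b x * (u ⬝ᵥ (B *ᵥ u)) +
      (crd e z f w).a x * (u ⬝ᵥ (G1 *ᵥ u)) := by
  have h1 := cone_ineq hp hz li P hx u hu
  have h2 : (crd e z f w).x0 x * (u ⬝ᵥ u) + (crd e z f w).b x * (u ⬝ᵥ (B *ᵥ u)) +
      (crd e z f w).a x * (u ⬝ᵥ (G1 *ᵥ u)) = (co e z f w x 1 * (u ⬝ᵥ u) +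
      co e z f w x 2 * (u ⬝ᵥ (B *ᵥ u)) + co e z f w x 3 * (u ⬝ᵥ (G1 *ᵥ u))) /
      co e z f w x 0 := by
    show co e z f w x 1 / co e z f w x 0 * _ + co e z f w x 2 / co e z f w x 0 * _ +
      co e z f w x 3 / co e z f w x 0 * _ = _
    ring
  rw [h2]
  exact div_nonneg h1 h0.le

/-- membership in the tangent cone on the plane `x₀ = 0` -/
theorem mem_Kz_plane (P : IsPen p e f w z B D G1 H DH) (hz : z ∈ hypCone p e) (b a : ℝ) :
    b • f + a • w ∈ Kz p e z ↔ ∀ u : ι → ℝ, D *ᵥ u = 0 →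
      0 ≤ b * (u ⬝ᵥ (B *ᵥ u)) + a * (u ⬝ᵥ (G1 *ᵥ u)) := by
  have h1 := H858.mem_Kz_f P hz 0 b a
  have h2 : (0 : ℝ) • e + b • f + a • w = b • f + a • w := by rw [zero_smul, zero_add]
  rw [h2] at h1
  rw [h1]
  refine forall_congr' fun u => imp_congr_right fun _ => ?_
  rw [zero_smul, zero_add, H858.form_add, H858.form_smul, H858.form_smul]

end Coords

end Vale.Agent.P256.H201
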