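import Vale.Agent.P256.H858.Exist
import Vale.Agent.P256.H858.Block
import Vale.Agent.P256.H201.FrameK
import Vale.Agent.P256.H186.Fin
import Vale.Agent.P256.H387.Top4
import Vale.Agent.P256.H824.Line
import Vale.Agent.P256.H985.GoalC

/-! Assembly of the local theorem in four variables. -/

set_option linter.all false

namespace Vale.Agent.P256.H201

open MvPolynomial Filter Topology Matrix Vale.Agent.P256 Vale.Agent.P256.H326 Vale.Agent.P256.H387

section Flat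

variable (p : MvPolynomial (Fin 4) ℝ) (e z : Fin 4 → ℝ) (U V : Ultrafilter (Fin 4 → ℝ))
  (ζ : (Fin 4 → ℝ) →ₗ[ℝ] ℝ) (f w : Fin 4 → ℝ)

/-- the situation of sections 4 and 5: a frame with `f` on the flat line -/
structure FlatFr : Prop where
  fr : Fr e z ζ f w
  apos : ∀ᶠ y in (U : Filter (Fin 4 → ℝ)), 0 < (crd e z f w).a y
  x0a : Tendsto (fun y => (crd e z f w).x0 y / (crd e z f w).a y) (U : Filter (Fin 4 → ℝ)) (𝓝 0)
  star : Star (U : Filter (Fin 4 → ℝ)) (V : Filter (Fin 4 → ℝ)) (sl p e) (crd e z f w)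
  rep : ∀ (ι : Type) [Fintype ι] [DecidableEq ι]
    (R : KRep ι (U : Filter (Fin 4 → ℝ)) (V : Filter (Fin 4 → ℝ)) (sl p e) (crd e z f w)),
    IsPen p e f w z R.B R.D R.G1 R.H R.DH → R.B *ᵥ R.ξ0 = 0 ∧ R.G1 *ᵥ R.ξ0 ≠ 0

end Flat

variable {p : MvPolynomial (Fin 4) ℝ} {e z : Fin 4 → ℝ} {U V : Ultrafilter (Fin 4 → ℝ)}
  {ζ : (Fin 4 → ℝ) →ₗ[ℝ] ℝ} {f w : Fin 4 → ℝ}

/-- section 5 applies in a frame on the flat line with a tangent vector `b₁ f + a₁ w`, `a₁ > 0` -/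
theorem hasNC_of (C : Ctx p e z U V ζ) (Fl : FlatFr p e z U V ζ f w) {b1 a1 : ℝ} (ha1 : 0 < a1)
    (hK : b1 • f + a1 • w ∈ Kz p e z) : H186.HasNC U V (sl p e) (crd e z f w) := by
  obtain ⟨d, B, D, G1, H, DH, P, aff⟩ := H858.exists_pen_f C.hyp C.irr Fl.fr
  obtain ⟨R, hB, hD, hG, hH, hDH⟩ := exists_krep C Fl.fr P
  subst hB hD hG hH hDH
  obtain ⟨h1, h2⟩ := Fl.rep _ R P
  exact ⟨_, inferInstance, inferInstance, R, h1, aff 0 _ _ h1 h1, h2, b1, a1, ha1,
    (mem_Kz_plane P C.hz.1 b1 a1).1 hK⟩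

/-- **The case tree.** -/
theorem sos_of_flat (C : Ctx p e z U V ζ)
    (Fl : ∀ k c : ℝ, k ≠ 0 → FlatFr p e z U V ζ (k • f + c • z) w)
    (goalC : (∀ b1 a1 : ℝ, 0 < a1 → b1 • f + a1 • w ∉ Kz p e z) →
      SosF (U : Filter (Fin 4 → ℝ)) (V : Filter (Fin 4 → ℝ)) (sl p e)) :
    SosF (U : Filter (Fin 4 → ℝ)) (V : Filter (Fin 4 → ℝ)) (sl p e) := by
  by_cases hNC : ∃ b1 a1 : ℝ, 0 < a1 ∧ b1 • f + a1 • w ∈ Kz p e z
  · obtain ⟨b1, a1, ha1, hK⟩ := hNC
    have F0 : FlatFr p e z U V ζ f w := by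
      have := Fl 1 0 one_ne_zero
      rwa [one_smul, zero_smul, add_zero] at this
    refine H186.caseNC F0.apos (hasNC_of C F0 ha1 hK) fun k hk => ?_
    have hf : f = k • z + (1 : ℝ) • (f + (-k) • z) := by module
    refine ⟨1, crd e z (f + (-k) • z) w, one_ne_zero, H186.chg_crd F0.fr.li hf C.hU C.hV, ?_⟩
    have F1 : FlatFr p e z U V ζ (f + (-k) • z) w := by
      have := Fl 1 (-k) one_ne_zero
      rwa [one_smul] at this
    refine hasNC_of C F1 (b1 := b1) ha1 ?_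
    have h1 := Kz_add_z C.hyp C.hz.1 hK (-(b1 * k))
    have h2 : b1 • f + a1 • w + (-(b1 * k)) • z = b1 • (f + (-k) • z) + a1 • w := by module
    rwa [h2] at h1
  · push Not at hNC
    exact goalC hNC

/-- every frame has a representation with base `f` -/
theorem exists_rep (C : Ctx p e z U V ζ) (h : Fr e z ζ f w) :
    ∃ (ι : Type) (_ : Fintype ι) (_ : DecidableEq ι)
      (R : KRep ι (U : Filter (Fin 4 → ℝ)) (V : Filter (Fin 4 → ℝ)) (sl p e) (crd e z f w)),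
      IsPen p e f w z R.B R.D R.G1 R.H R.DH := by
  obtain ⟨d, B, D, G1, H, DH, P, aff⟩ := H858.exists_pen_f C.hyp C.irr h
  obtain ⟨R, hB, hD, hG, hH, hDH⟩ := exists_krep C h P
  subst hB hD hG hH hDH
  exact ⟨_, inferInstance, inferInstance, R, P⟩

/-- section 3: the flat line -/
theorem flat (C : Ctx p e z U V ζ) :
    SosF (U : Filter (Fin 4 → ℝ)) (V : Filter (Fin 4 → ℝ)) (sl p e) ∨
    ∃ f w, ∀ k c : ℝ, k ≠ 0 → FlatFr p e z U V ζ (k • f + c • z) w := by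
  rcases H824.flat_line C C.ζe C.ζz (fun x hx => C.ζ_nonneg hx) C.exists_frame
    (fun f w h => exists_rep C h) with h | ⟨f, w, hfr, h⟩
  · exact Or.inl h
  refine Or.inr ⟨f, w, fun k c hk => ?_⟩
  obtain ⟨h1, h2, h3, h4⟩ := h k c 1 hk one_pos
  rw [one_smul] at h1 h2 h3 h4
  refine ⟨h1, h3, ?_, h2, fun ι i1 i2 R hR => h4 ι i1 i2 R hR⟩
  obtain ⟨ι, i1, i2, R, hR⟩ := exists_rep C h1
  obtain ⟨h5, h6⟩ := h4 ι i1 i2 R hR
  exact H186.x0_div_a R h5 (H186.ker_D R) h3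

/-- the local theorem from case (C) -/
theorem local4_of (C : Ctx p e z U V ζ)
    (goalC : ∀ f w : Fin 4 → ℝ, (∀ k c : ℝ, k ≠ 0 → FlatFr p e z U V ζ (k • f + c • z) w) →
      (∀ b1 a1 : ℝ, 0 < a1 → b1 • f + a1 • w ∉ Kz p e z) →
      SosF (U : Filter (Fin 4 → ℝ)) (V : Filter (Fin 4 → ℝ)) (sl p e)) :
    SosF (U : Filter (Fin 4 → ℝ)) (V : Filter (Fin 4 → ℝ)) (sl p e) := by
  rcases flat C with h | ⟨f, w, Fl⟩
  · exact h
  · exact sos_of_flat C Fl (goalC f w Fl)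

/-- **The local theorem in four variables.** -/
theorem local4 (C : Ctx p e z U V ζ) :
    SosF (U : Filter (Fin 4 → ℝ)) (V : Filter (Fin 4 → ℝ)) (sl p e) := by
  refine local4_of C fun f w Fl hno => ?_
  have F0 : FlatFr p e z U V ζ f w := by
    have := Fl 1 0 one_ne_zero
    rwa [one_smul, zero_smul, add_zero] at this
  exact H985.goalC C F0.fr F0.star F0.apos F0.x0a hno

/-- **The local statement at the singular points in four variables.** -/
theorem localAt_four {q : MvPolynomial (Fin 4) ℝ} {e : Fin 4 → ℝ} (hq : IsHyperbolic q e)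
    (hirr : Irreducible q) (hpt : ∀ x ∈ hypCone q e, -x ∈ hypCone q e → x = 0) :
    LocalAt q e :=
  localAt_of_ctx hq hirr hpt fun _ _ _ _ C => local4 C

/-- **Every hyperbolicity cone in at most four variables is a spectrahedral shadow.** -/
theorem shadow_le_four {n : ℕ} (hn : n ≤ 4) {p : MvPolynomial (Fin n) ℝ} {e : Fin n → ℝ}
    (hp : IsHyperbolic p e) : IsSpectrahedralShadow (hypCone p e) :=
  top4 (fun _ _ _ _ _ _ C => local4 C) hn hp

end Vale.Agent.P256.H201
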