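import Vale.Agent.P256.H201.C3
import Vale.Agent.P256.H186.Disp

/-! Case 5c(iii) for a kernel representation `KRep`. -/

set_option linter.all false

namespace Vale.Agent.P256.H201

open Filter Topology Matrix Vale.Agent.P256 Vale.Agent.P256.H326 Vale.Agent.P256.H387
open Vale.Agent.P256.H186 (Goal Phi)

variable {ι : Type} [Fintype ι] [DecidableEq ι] {L X : Type} {S : L → X → ℝ} {K : Crd L X}

theorem pen_eq_Mf (B D G1 : Matrix ι ι ℝ) (H : ℝ → Matrix ι ι ℝ) (x b a : ℝ) :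
    pen B D G1 x b a (H a) = Mf B D G1 H x b a := by
  unfold pen Mf Gs
  abel

/-- the frame of a kernel representation -/
def ofKRep {U : Ultrafilter L} {V : Ultrafilter X} (R : KRep ι (U : Filter L) (V : Filter X) S K)
    (hB0 : R.B *ᵥ R.ξ0 = 0) (hγ : R.ξ0 ⬝ᵥ (R.H 0 *ᵥ R.ξ0) = 0) : PF U V ι where
  B := R.B
  D := R.D
  G1 := R.G1
  G2 := R.H 0
  xL := K.x0
  bL := K.b
  aL := K.a
  xX := K.y0
  bX := K.b'
  aX := K.a'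
  HL := fun l => R.H (K.a l)
  HX := fun x => R.H (K.a' x)
  ξ := R.ξ
  ξ0 := R.ξ0
  hB := R.symB
  hD := R.psdD
  hG := R.sym1
  txL := R.tx0
  tbL := R.tb
  taL := R.ta
  txX := R.ty0
  tbX := R.tb'
  taX := R.ta'
  tHL := tendsto_pi_nhds.2 fun i => tendsto_pi_nhds.2 fun j =>
    (((R.nk i j).cont.tendsto).comp R.ta)
  tHX := tendsto_pi_nhds.2 fun i => tendsto_pi_nhds.2 fun j =>
    (((R.nk i j).cont.tendsto).comp R.ta')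
  psdL := by
    filter_upwards [R.psdL] with u hu
    rw [pen_eq_Mf]; exact hu
  psdX := by
    filter_upwards [R.psdX] with v hv
    rw [pen_eq_Mf]; exact hv
  ker := by
    filter_upwards [R.ker] with u hu
    rw [pen_eq_Mf]; exact hu
  nrm := R.nrm
  tξ := tendsto_pi_nhds.2 R.tξ
  hD0 := H186.ker_D R
  hB0 := hB0
  hg0 := R.G00
  hγ := hγ
  N1 := fun i j => H186.dom_dH R i j

/-- **Case 5c(iii)** for a kernel representation: the input `hC3` of the dispatch `five_one`. -/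
theorem goal_c3 {U : Ultrafilter L} {V : Ultrafilter X}
    (R : KRep ι (U : Filter L) (V : Filter X) S K)
    (hB0 : R.B *ᵥ R.ξ0 = 0) (hγ : R.ξ0 ⬝ᵥ (R.H 0 *ᵥ R.ξ0) = 0)
    (ha : ∀ᶠ l in (U : Filter L), 0 < K.a l) (hg : R.G1 *ᵥ R.ξ0 ≠ 0) {b1 a1 : ℝ} (ha1 : 0 < a1)
    (NC : ∀ v : ι → ℝ, R.D *ᵥ v = 0 → 0 ≤ b1 * (v ⬝ᵥ (R.B *ᵥ v)) + a1 * (v ⬝ᵥ (R.G1 *ᵥ v)))
    (ε : L → ℝ) (μ : ℝ) (hμ : μ ≠ 0) (hε : ∀ᶠ l in (U : Filter L), 0 < ε l)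
    (hBε : ∀ i, Tendsto (fun l => (R.B *ᵥ R.ξ l) i / ε l) (U : Filter L)
      (𝓝 (μ * (R.G1 *ᵥ R.ξ0) i)))
    (haε : Tendsto (fun l => K.a l / ε l) (U : Filter L) (𝓝 0)) : Goal R := by
  obtain ⟨C, hC, h⟩ := case_c3 (ofKRep R hB0 hγ) hg ha1 NC ha
    (H186.x0_div_a R hB0 (H186.ker_D R) ha) hμ hε (tendsto_pi_nhds.2 fun i => by
      refine (hBε i).congr fun l => ?_
      show (R.B *ᵥ R.ξ l) i / ε l = (ε l)⁻¹ * (R.B *ᵥ R.ξ l) i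
      rw [div_eq_mul_inv, mul_comm]) haε
  refine ⟨C, hC, h.congr' fun u v => ?_⟩
  have e : (ofKRep R hB0 hγ).Φ u v = Phi R u v := by
    show R.ξ u ⬝ᵥ (pen R.B R.D R.G1 (K.y0 v) (K.b' v) (K.a' v) (R.H (K.a' v)) *ᵥ R.ξ u) = _
    rw [pen_eq_Mf]; rfl
  rw [e]
  rfl

/-- the dispatch of section 5 in case (NC), for one representation -/
theorem five_nc {U : Ultrafilter L} {V : Ultrafilter X}
    (R : KRep ι (U : Filter L) (V : Filter X) S K)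
    (hB0 : R.B *ᵥ R.ξ0 = 0) (hγ : R.ξ0 ⬝ᵥ (R.H 0 *ᵥ R.ξ0) = 0)
    (ha : ∀ᶠ l in (U : Filter L), 0 < K.a l) (hg : R.G1 *ᵥ R.ξ0 ≠ 0) {b1 a1 : ℝ} (ha1 : 0 < a1)
    (NC : ∀ v : ι → ℝ, R.D *ᵥ v = 0 → 0 ≤ b1 * (v ⬝ᵥ (R.B *ᵥ v)) + a1 * (v ⬝ᵥ (R.G1 *ᵥ v))) :
    Goal R ∨ H186.Alt R :=
  H186.five_one R hB0 ha hg (goal_c3 R hB0 hγ ha hg ha1 NC)

end Vale.Agent.P256.H201
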