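import Vale.Agent.P256.H201.Frame

/-! Case 5c(iii), part 1: the vectors `k`, `ê` and the one-sided scalars. -/

set_option linter.all false

namespace Vale.Agent.P256.H201

open Filter Topology Matrix Vale.Agent.P256 Vale.Agent.P256.H326 Vale.Agent.P256.H387

variable {L X ι : Type*} [Fintype ι] [DecidableEq ι] {U : Ultrafilter L} {V : Ultrafilter X}

/-- the derived data of case 5c(iii) -/
structure C3D (R : PF U V ι) where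
  k : ι → ℝ
  eh : ι → ℝ
  w1 : ι → ℝ
  w2 : ι → ℝ
  κ : ℝ
  μ : ℝ
  q : ℝ
  ε : L → ℝ
  apos : ∀ᶠ u in (U : Filter L), 0 < R.aL u
  txa : Tendsto (fun u => R.xL u / R.aL u) U (𝓝 0)
  hμ : μ ≠ 0
  epos : ∀ᶠ u in (U : Filter L), 0 < ε u
  tBε : Tendsto (fun u => (ε u)⁻¹ • (R.B *ᵥ R.ξ u)) U (𝓝 (μ • R.g))
  taε : Tendsto (fun u => R.aL u / ε u) U (𝓝 0)
  hk : R.D *ᵥ k = R.g
  hκe : k ⬝ᵥ R.g = κ
  hκ : 0 < κ
  ehD : R.D *ᵥ eh = 0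
  ehB : R.B *ᵥ eh = μ • R.g
  hq : eh ⬝ᵥ (R.G1 *ᵥ eh) = q
  hq0 : 0 ≤ q
  hcorr : R.G1 *ᵥ eh = R.D *ᵥ w1 + R.B *ᵥ w2

theorem exists_c3d (R : PF U V ι) (hg : R.g ≠ 0) {b1 a1 : ℝ} (ha1 : 0 < a1)
    (NC : ∀ v : ι → ℝ, R.D *ᵥ v = 0 → 0 ≤ b1 * (v ⬝ᵥ (R.B *ᵥ v)) + a1 * (v ⬝ᵥ (R.G1 *ᵥ v)))
    (apos : ∀ᶠ u in (U : Filter L), 0 < R.aL u)
    (txa : Tendsto (fun u => R.xL u / R.aL u) U (𝓝 0))
    {ε : L → ℝ} {μ : ℝ} (hμ : μ ≠ 0) (epos : ∀ᶠ u in (U : Filter L), 0 < ε u)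
    (tBε : Tendsto (fun u => (ε u)⁻¹ • (R.B *ᵥ R.ξ u)) U (𝓝 (μ • R.g)))
    (taε : Tendsto (fun u => R.aL u / ε u) U (𝓝 0)) : Nonempty (C3D R) := by
  classical
  have hDh := R.hD.1
  obtain ⟨k, hk⟩ : ∃ k : ι → ℝ, R.D *ᵥ k = R.g := by
    refine exists_preimage hDh fun w hw => ?_
    have h2 := cross_zero (E := LinearMap.ker R.D.mulVecLin) (herm_comb R.hB R.hG b1 a1)
      (fun v hv => by rw [form_comb]; exact NC v hv) (z := R.ξ0) (w := w) R.hD0 hw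
      (by rw [form_comb, R.hB0, R.hg0]; simp)
    rw [form_comb, R.hB0, dotProduct_zero, mul_zero, zero_add] at h2
    exact (mul_eq_zero.1 h2).resolve_left ha1.ne'
  have hκ : 0 < k ⬝ᵥ R.g := by
    have h1 : 0 ≤ k ⬝ᵥ (R.D *ᵥ k) := psd_nonneg R.hD k
    rw [hk] at h1
    refine lt_of_le_of_ne h1 fun h0 => hg ?_
    have h2 : star k ⬝ᵥ (R.D *ᵥ k) = 0 := by rw [star_trivial, hk]; exact h0.symm
    rw [← hk]
    exact (R.hD.dotProduct_mulVec_zero_iff k).1 h2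
  obtain ⟨e0, he0D, he0B⟩ : ∃ e : ι → ℝ, R.D *ᵥ e = 0 ∧ R.B *ᵥ e = μ • R.g := by
    refine exists_limit (F := (U : Filter L)) R.D R.B (fun u => (ε u)⁻¹ • R.ξ u) ?_ ?_
    · refine (R.tDε apos txa epos tBε taε).congr fun u => ?_
      rw [Matrix.mulVec_smul]
    · refine tBε.congr fun u => ?_
      rw [Matrix.mulVec_smul]
  obtain ⟨v1, w1, w2, hv1D, hv1B, hcorr⟩ := exists_corr R.hB hDh R.hG ha1 NC he0D
  have ehD : R.D *ᵥ (e0 + v1) = 0 := by rw [Matrix.mulVec_add, he0D, hv1D, add_zero]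
  have ehB : R.B *ᵥ (e0 + v1) = μ • R.g := by rw [Matrix.mulVec_add, he0B, hv1B, add_zero]
  have ehg : (e0 + v1) ⬝ᵥ R.g = 0 := by rw [← hk, herm_swap hDh, ehD, dotProduct_zero]
  have ehBeh : (e0 + v1) ⬝ᵥ (R.B *ᵥ (e0 + v1)) = 0 := by
    rw [ehB, dotProduct_smul, ehg, smul_zero]
  refine ⟨⟨k, e0 + v1, w1, w2, k ⬝ᵥ R.g, μ, (e0 + v1) ⬝ᵥ (R.G1 *ᵥ (e0 + v1)), ε, apos, txa, hμ,
    epos, tBε, taε, hk, rfl, hκ, ehD, ehB, rfl, ?_, hcorr⟩⟩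
  have h1 := NC _ ehD
  rw [ehBeh, mul_zero, zero_add] at h1
  exact nonneg_of_mul_nonneg_right h1 ha1

namespace C3D

variable {R : PF U V ι} (T : C3D R)

/-- `X = -⟨g, ξ⟩/κ` -/
noncomputable def XL (u : L) : ℝ := -(R.ξ u ⬝ᵥ R.g) / T.κ
def om (u : L) : ℝ := T.k ⬝ᵥ (R.B *ᵥ R.ξ u)
def ee (u : L) : ℝ := T.eh ⬝ᵥ R.ξ u
def kx (u : L) : ℝ := T.k ⬝ᵥ R.ξ u
def g1e (u : L) : ℝ := T.eh ⬝ᵥ (R.G1 *ᵥ R.ξ u)
def g1k (u : L) : ℝ := T.k ⬝ᵥ (R.G1 *ᵥ R.ξ u)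
def he (u : L) : ℝ := T.eh ⬝ᵥ (R.HL u *ᵥ R.ξ u)
def hk' (u : L) : ℝ := T.k ⬝ᵥ (R.HL u *ᵥ R.ξ u)
def h0 (_ : C3D R) (u : L) : ℝ := R.ξ0 ⬝ᵥ (R.HL u *ᵥ R.ξ u)
noncomputable def rho (u : L) : ℝ := T.om u * T.ee u + T.μ * T.κ * T.XL u * T.kx u
noncomputable def sig (u : L) : ℝ := T.om u * T.he u + T.μ * T.κ * T.XL u * T.hk' u - T.rho u * T.h0 u

theorem eX (u : L) : R.ξ u ⬝ᵥ R.g = -(T.κ * T.XL u) := by
  have := T.hκ.ne'
  unfold XL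
  field_simp

theorem ehg : T.eh ⬝ᵥ R.g = 0 := by rw [← T.hk, herm_swap R.hD.1, T.ehD, dotProduct_zero]

theorem ehBeh : T.eh ⬝ᵥ (R.B *ᵥ T.eh) = 0 := by
  rw [T.ehB, dotProduct_smul, T.ehg, smul_zero]

theorem kB : T.k ⬝ᵥ (R.B *ᵥ T.eh) = T.μ * T.κ := by
  rw [T.ehB, dotProduct_smul, smul_eq_mul, T.hκe]

theorem sG0 (u : L) : R.ξ0 ⬝ᵥ (R.G1 *ᵥ R.ξ u) = -(T.κ * T.XL u) := by rw [R.sG0, T.eX]

theorem sDk (u : L) : T.k ⬝ᵥ (R.D *ᵥ R.ξ u) = -(T.κ * T.XL u) := by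
  rw [herm_swap R.hD.1, T.hk, T.eX]

theorem sBe (u : L) : T.eh ⬝ᵥ (R.B *ᵥ R.ξ u) = -(T.μ * T.κ * T.XL u) := by
  rw [herm_swap R.hB, T.ehB, dotProduct_smul, T.eX, smul_eq_mul]; ring

theorem sDe (u : L) : T.eh ⬝ᵥ (R.D *ᵥ R.ξ u) = 0 := by
  rw [herm_swap R.hD.1, T.ehD, dotProduct_zero]

theorem rows : ∀ᶠ u in (U : Filter L),
    (R.xL u - R.aL u * T.κ * T.XL u + R.aL u ^ 2 * T.h0 u = 0) ∧
    (R.xL u * T.kx u + R.bL u * T.om u - T.κ * T.XL u + R.aL u * T.g1k u +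
      R.aL u ^ 2 * T.hk' u = 0) ∧
    (R.xL u * T.ee u - R.bL u * (T.μ * T.κ * T.XL u) + R.aL u * T.g1e u +
      R.aL u ^ 2 * T.he u = 0) := by
  filter_upwards [R.row R.ξ0, R.row T.k, R.row T.eh, R.nrm] with u h1 h2 h3 hn
  refine ⟨?_, ?_, ?_⟩
  · rw [hn, R.sB0, R.sD0, T.sG0] at h1
    rw [← h1]; unfold h0; ring
  · rw [T.sDk] at h2
    rw [← h2]; unfold kx om g1k hk'; ring
  · rw [T.sBe, T.sDe] at h3
    rw [← h3]; unfold ee g1e he; ring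

theorem tX : Tendsto T.XL U (𝓝 0) := by
  have := (R.tg.neg).div_const T.κ
  rw [neg_zero, zero_div] at this
  exact this

theorem tom : Tendsto T.om U (𝓝 0) := by
  have := R.tc R.B T.k
  rwa [R.hB0, dotProduct_zero] at this

theorem tee : Tendsto T.ee U (𝓝 (T.eh ⬝ᵥ R.ξ0)) := R.tdot _

theorem th0 : Tendsto T.h0 U (𝓝 0) := by
  have := R.tHc R.ξ0
  rwa [R.hγ] at this

theorem trho : Tendsto T.rho U (𝓝 0) := by
  have := (T.tom.mul T.tee).add ((T.tX.const_mul (T.μ * T.κ)).mul (R.tdot T.k))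
  simp only [zero_mul, mul_zero, add_zero] at this
  exact this

theorem tsig : Tendsto T.sig U (𝓝 0) := by
  have := ((T.tom.mul (R.tHc T.eh)).add ((T.tX.const_mul (T.μ * T.κ)).mul (R.tHc T.k))).sub
    (T.trho.mul T.th0)
  simp only [zero_mul, mul_zero, add_zero, sub_zero] at this
  exact this

theorem pinL : ∀ᶠ u in (U : Filter L), T.κ / 4 * R.aL u ^ 2 ≤ R.xL u := R.pinL T.hk T.hκ T.hκe

theorem pinX : ∀ᶠ v in (V : Filter X), T.κ / 4 * R.aX v ^ 2 ≤ R.xX v := R.pinX T.hk T.hκ T.hκe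

theorem hXa : ∀ᶠ u in (U : Filter L), R.aL u ≤ 8 * T.XL u := by
  filter_upwards [T.rows, T.pinL, T.apos,
    T.th0.eventually (lt_mem_nhds (show -(T.κ / 8) < 0 by linarith [T.hκ]))] with u hr hp ha hh
  have hκ := T.hκ
  have h1 := hr.1
  have h2 : R.aL u * T.κ * T.XL u = R.xL u + R.aL u ^ 2 * T.h0 u := by linarith
  have h3 : R.aL u ^ 2 * (-(T.κ / 8)) ≤ R.aL u ^ 2 * T.h0 u :=
    mul_le_mul_of_nonneg_left hh.le (sq_nonneg _)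
  have h4 : R.aL u * T.κ * R.aL u ≤ R.aL u * T.κ * (8 * T.XL u) := by
    have : R.aL u * T.κ * (8 * T.XL u) = 8 * (R.xL u + R.aL u ^ 2 * T.h0 u) := by
      rw [← h2]; ring
    rw [this]
    have e : R.aL u * T.κ * R.aL u = T.κ * R.aL u ^ 2 := by ring
    rw [e]
    linarith
  exact le_of_mul_le_mul_left h4 (mul_pos ha hκ)

theorem haL : ∀ᶠ u in (U : Filter L), 0 < R.aL u ∧ 0 < T.XL u := by
  filter_upwards [T.hXa, T.apos] with u h1 h2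
  exact ⟨h2, by linarith⟩

theorem hτ : ∃ τ0, Tendsto (fun u => R.aL u / T.XL u) U (𝓝 τ0) := by
  obtain ⟨τ0, hτ, -⟩ := exists_ratio U (f := R.aL) (g := T.XL) (C := 8) (by
    filter_upwards [T.hXa, T.haL] with u h1 h2
    rw [abs_of_pos h2.1, abs_of_pos h2.2]; exact h1)
  exact ⟨τ0, hτ⟩

theorem t1 : Tendsto (fun u => T.om u / T.ε u) U (𝓝 (T.μ * T.κ)) := by
  have h1 := tendsto_dot (tendsto_const_nhds (x := T.k)) T.tBε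
  rw [dotProduct_smul, smul_eq_mul, T.hκe] at h1
  refine h1.congr fun u => ?_
  rw [dotProduct_smul, smul_eq_mul]
  show (T.ε u)⁻¹ * T.om u = _
  rw [div_eq_mul_inv, mul_comm]

theorem hq' : T.q = T.μ * (T.w2 ⬝ᵥ R.g) := by
  rw [← T.hq, T.hcorr, dotProduct_add, herm_swap R.hD.1, T.ehD, dotProduct_zero, zero_add,
    herm_swap R.hB, T.ehB, dotProduct_smul, smul_eq_mul]

theorem t2 : Tendsto (fun u => T.g1e u / T.ε u) U (𝓝 T.q) := by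
  have h1 := (tendsto_dot (tendsto_const_nhds (x := T.w1))
    (R.tDε T.apos T.txa T.epos T.tBε T.taε)).add
    (tendsto_dot (tendsto_const_nhds (x := T.w2)) T.tBε)
  rw [dotProduct_zero, zero_add, dotProduct_smul, smul_eq_mul, ← T.hq'] at h1
  refine h1.congr fun u => ?_
  rw [dotProduct_smul, dotProduct_smul, smul_eq_mul, smul_eq_mul, ← mul_add,
    herm_swap R.hD.1 T.w1, herm_swap R.hB T.w2, ← dotProduct_add, ← T.hcorr]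
  show (T.ε u)⁻¹ * (R.ξ u ⬝ᵥ (R.G1 *ᵥ T.eh)) = T.eh ⬝ᵥ (R.G1 *ᵥ R.ξ u) / T.ε u
  rw [herm_swap R.hG T.eh, div_eq_mul_inv, mul_comm]

theorem hg1 (hqpos : 0 < T.q) : ∀ᶠ u in (U : Filter L), T.g1e u ≠ 0 := by
  filter_upwards [T.t2.eventually (lt_mem_nhds hqpos), T.epos] with u h1 h2 h3
  rw [h3, zero_div] at h1
  exact lt_irrefl _ h1

theorem tw (hqpos : 0 < T.q) :
    Tendsto (fun u => T.om u * T.q / T.g1e u) U (𝓝 (T.μ * T.κ)) := by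
  have h1 := (T.t1.mul_const T.q).div T.t2 hqpos.ne'
  rw [mul_div_assoc, div_self hqpos.ne', mul_one] at h1
  refine h1.congr' ?_
  filter_upwards [T.epos, T.hg1 hqpos] with u h2 h3
  have := h2.ne'
  show T.om u / T.ε u * T.q / (T.g1e u / T.ε u) = T.om u * T.q / T.g1e u
  field_simp

end C3D

end Vale.Agent.P256.H201
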