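import Vale.Agent.P256.H201.C3a

/-! Case 5c(iii), part 2: the one-sided weights on the point side. -/

set_option linter.all false

namespace Vale.Agent.P256.H201

open Filter Topology Matrix Vale.Agent.P256 Vale.Agent.P256.H326 Vale.Agent.P256.H387

variable {L X ι : Type*} [Fintype ι] [DecidableEq ι] {U : Ultrafilter L} {V : Ultrafilter X}

namespace C3D

variable {R : PF U V ι} (T : C3D R)

noncomputable def p (_ : C3D R) (v : X) : ℝ := Real.sqrt (R.xX v)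

def Mee (v : X) : ℝ := T.eh ⬝ᵥ (R.MX v *ᵥ T.eh)

noncomputable def l (v : X) : ℝ := Real.sqrt (T.Mee v + R.xX v)

noncomputable def P (v : X) : ℝ := R.aX v / T.p v

noncomputable def By (v : X) : ℝ :=
  T.eh ⬝ᵥ T.eh + 1 + T.P v ^ 2 * (T.eh ⬝ᵥ (R.HX v *ᵥ T.eh))

include T in
theorem xnn : ∀ᶠ v in (V : Filter X), 0 ≤ R.xX v := by
  filter_upwards [T.pinX] with v hv
  have := T.hκ
  exact le_trans (by positivity) hv

theorem psq : ∀ᶠ v in (V : Filter X), T.p v ^ 2 = R.xX v := by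
  filter_upwards [T.xnn] with v hv
  exact Real.sq_sqrt hv

theorem tp : Tendsto T.p V (𝓝 0) := by
  have := (Real.continuous_sqrt.tendsto 0).comp R.txX
  rwa [Real.sqrt_zero] at this

theorem pnn (v : X) : 0 ≤ T.p v := Real.sqrt_nonneg _

theorem hP : ∃ P0, Tendsto T.P V (𝓝 P0) ∧ ∀ᶠ v in (V : Filter X), R.aX v = T.P v * T.p v := by
  refine exists_ratio V (f := R.aX) (g := T.p) (C := Real.sqrt (4 / T.κ)) ?_
  filter_upwards [T.pinX, T.psq] with v h1 h2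
  have hκ := T.hκ
  have h3 : R.aX v ^ 2 ≤ (Real.sqrt (4 / T.κ) * T.p v) ^ 2 := by
    rw [mul_pow, Real.sq_sqrt (by positivity), h2, div_mul_eq_mul_div, le_div_iff₀ hκ]
    linarith
  have h4 := sq_le_sq.1 h3
  rwa [abs_mul, abs_of_nonneg (Real.sqrt_nonneg _)] at h4

theorem haX : ∀ᶠ v in (V : Filter X), R.aX v = T.P v * T.p v := by
  obtain ⟨P0, -, h⟩ := T.hP
  exact h

theorem Mee_nn : ∀ᶠ v in (V : Filter X), 0 ≤ T.Mee v := by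
  filter_upwards [R.psdX'] with v hv
  exact psd_nonneg hv _

theorem Mee_eq (v : X) : T.Mee v = R.xX v * (T.eh ⬝ᵥ T.eh) + R.aX v * T.q +
    R.aX v ^ 2 * (T.eh ⬝ᵥ (R.HX v *ᵥ T.eh)) := by
  unfold Mee
  rw [R.MX_form, T.ehBeh, T.ehD, dotProduct_zero, T.hq]
  ring

theorem lsq : ∀ᶠ v in (V : Filter X), T.l v ^ 2 = T.Mee v + R.xX v := by
  filter_upwards [T.Mee_nn, T.xnn] with v h1 h2
  exact Real.sq_sqrt (add_nonneg h1 h2)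

theorem lnn (v : X) : 0 ≤ T.l v := Real.sqrt_nonneg _

theorem hpl : ∃ r0, Tendsto (fun v => T.p v / T.l v) V (𝓝 r0) ∧
    ∀ᶠ v in (V : Filter X), T.p v = T.p v / T.l v * T.l v := by
  refine exists_ratio V (f := T.p) (g := T.l) (C := 1) ?_
  filter_upwards [T.lsq, T.psq, T.Mee_nn] with v h1 h2 h3
  have h4 : T.p v ^ 2 ≤ T.l v ^ 2 := by rw [h1, h2]; linarith
  have := sq_le_sq.1 h4
  linarith

theorem tMkk : Tendsto (fun v => T.k ⬝ᵥ (R.MX v *ᵥ T.k)) V (𝓝 T.κ) := by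
  have h1 : Tendsto (fun v => R.xX v * (T.k ⬝ᵥ T.k) + R.bX v * (T.k ⬝ᵥ (R.B *ᵥ T.k)) +
      T.k ⬝ᵥ (R.D *ᵥ T.k) + R.aX v * (T.k ⬝ᵥ (R.G1 *ᵥ T.k)) +
      R.aX v ^ 2 * (T.k ⬝ᵥ (R.HX v *ᵥ T.k))) V
      (𝓝 (0 * (T.k ⬝ᵥ T.k) + 0 * (T.k ⬝ᵥ (R.B *ᵥ T.k)) + T.k ⬝ᵥ (R.D *ᵥ T.k) +
      0 * (T.k ⬝ᵥ (R.G1 *ᵥ T.k)) + 0 ^ 2 * (T.k ⬝ᵥ (R.G2 *ᵥ T.k)))) :=
    ((((R.txX.mul_const _).add (R.tbX.mul_const _)).add tendsto_const_nhds).add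
      (R.taX.mul_const _)).add ((R.taX.pow 2).mul
      (tendsto_form tendsto_const_nhds R.tHX tendsto_const_nhds))
  have h2 : 0 * (T.k ⬝ᵥ T.k) + 0 * (T.k ⬝ᵥ (R.B *ᵥ T.k)) + T.k ⬝ᵥ (R.D *ᵥ T.k) +
      0 * (T.k ⬝ᵥ (R.G1 *ᵥ T.k)) + 0 ^ 2 * (T.k ⬝ᵥ (R.G2 *ᵥ T.k)) = T.κ := by
    rw [T.hk, T.hκe]; ring
  rw [h2] at h1
  exact h1.congr fun v => (R.MX_form v _ _).symm

/-- `|b'| ≤ C l` -/
theorem hbl : ∃ Q0, Tendsto (fun v => R.bX v / T.l v) V (𝓝 Q0) ∧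
    ∀ᶠ v in (V : Filter X), R.bX v = R.bX v / T.l v * T.l v := by
  have hκ := T.hκ
  have hμ := T.hμ
  have tc : Tendsto (fun v => T.eh ⬝ᵥ (R.G1 *ᵥ T.k) + R.aX v * (T.eh ⬝ᵥ (R.HX v *ᵥ T.k))) V
      (𝓝 (T.eh ⬝ᵥ (R.G1 *ᵥ T.k) + 0 * (T.eh ⬝ᵥ (R.G2 *ᵥ T.k)))) :=
    tendsto_const_nhds.add (R.taX.mul (tendsto_form tendsto_const_nhds R.tHX tendsto_const_nhds))
  set c0 : ℝ := T.eh ⬝ᵥ (R.G1 *ᵥ T.k) with hc0
  refine exists_ratio V (f := R.bX) (g := T.l) (C := Real.sqrt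
    (3 * ((T.κ + 1) + (T.eh ⬝ᵥ T.k) ^ 2 + 4 / T.κ * (|c0| + 1) ^ 2) / (T.μ * T.κ) ^ 2)) ?_
  filter_upwards [T.lsq, T.psq, T.Mee_nn, T.xnn, R.psdX', T.pinX,
    T.tMkk.eventually (gt_mem_nhds (show T.κ < T.κ + 1 by linarith)),
    R.txX.eventually (gt_mem_nhds (show (0 : ℝ) < 1 by norm_num)),
    tc.abs.eventually (gt_mem_nhds (show |c0 + 0 * (T.eh ⬝ᵥ (R.G2 *ᵥ T.k))| < |c0| + 1 by
      rw [zero_mul, add_zero]; linarith))]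
    with v h1 h2 h3 h4 h5 h6 h7 h8 h9
  have hμκ : 0 < (T.μ * T.κ) ^ 2 := by positivity
  set c1 : ℝ := c0 + R.aX v * (T.eh ⬝ᵥ (R.HX v *ᵥ T.k)) with hc1
  set m : ℝ := T.eh ⬝ᵥ (R.MX v *ᵥ T.k) with hm
  set ek : ℝ := T.eh ⬝ᵥ T.k with hek
  have e1 : m = R.xX v * ek + R.bX v * (T.μ * T.κ) + R.aX v * c1 := by
    rw [hm, R.MX_form, herm_swap R.hB T.eh T.k, T.kB, herm_swap R.hD.1 T.eh T.k, T.ehD,
      dotProduct_zero]
    ring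
  have e3 : m ^ 2 ≤ T.l v ^ 2 * (T.κ + 1) := by
    refine (psd_cs_sq h5 T.eh T.k).trans ?_
    have h10 : T.Mee v ≤ T.l v ^ 2 := by rw [h1]; linarith
    exact mul_le_mul h10 h7.le (psd_nonneg h5 T.k) (sq_nonneg _)
  have e4 : R.bX v * (T.μ * T.κ) = m - R.xX v * ek - R.aX v * c1 := by rw [e1]; ring
  have e5 : (R.xX v * ek) ^ 2 ≤ T.l v ^ 2 * ek ^ 2 := by
    rw [mul_pow]
    refine mul_le_mul_of_nonneg_right ?_ (sq_nonneg _)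
    have : R.xX v ^ 2 ≤ R.xX v := by nlinarith only [h4, h8]
    rw [h1]; linarith
  have e6 : (R.aX v * c1) ^ 2 ≤ T.l v ^ 2 * (4 / T.κ * (|c0| + 1) ^ 2) := by
    rw [mul_pow]
    have h10 : R.aX v ^ 2 ≤ 4 / T.κ * T.l v ^ 2 := by
      rw [h1, div_mul_eq_mul_div, le_div_iff₀ hκ]
      linarith
    have h11 : c1 ^ 2 ≤ (|c0| + 1) ^ 2 := by
      rw [← sq_abs]
      exact pow_le_pow_left₀ (abs_nonneg _) h9.le 2
    calc _ ≤ (4 / T.κ * T.l v ^ 2) * (|c0| + 1) ^ 2 :=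
          mul_le_mul h10 h11 (sq_nonneg _) (by positivity)
      _ = _ := by ring
  have e7 : (R.bX v * (T.μ * T.κ)) ^ 2 ≤
      3 * (m ^ 2 + (R.xX v * ek) ^ 2 + (R.aX v * c1) ^ 2) := by
    rw [e4]
    nlinarith only [sq_nonneg (m + R.xX v * ek), sq_nonneg (m + R.aX v * c1),
      sq_nonneg (R.xX v * ek - R.aX v * c1)]
  have e8 : R.bX v ^ 2 ≤
      (Real.sqrt (3 * ((T.κ + 1) + ek ^ 2 + 4 / T.κ * (|c0| + 1) ^ 2) / (T.μ * T.κ) ^ 2) *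
        T.l v) ^ 2 := by
    rw [mul_pow, Real.sq_sqrt (by positivity), div_mul_eq_mul_div, le_div_iff₀ hμκ]
    have : R.bX v ^ 2 * (T.μ * T.κ) ^ 2 = (R.bX v * (T.μ * T.κ)) ^ 2 := by ring
    rw [this]
    refine e7.trans ?_
    have : 3 * (T.κ + 1 + ek ^ 2 + 4 / T.κ * (|c0| + 1) ^ 2) * T.l v ^ 2 =
      3 * (T.l v ^ 2 * (T.κ + 1) + T.l v ^ 2 * ek ^ 2 +
        T.l v ^ 2 * (4 / T.κ * (|c0| + 1) ^ 2)) := by ring
    rw [this]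
    linarith
  have e9 := sq_le_sq.1 e8
  rwa [abs_mul, abs_of_nonneg (Real.sqrt_nonneg _)] at e9

theorem l2 : ∀ᶠ v in (V : Filter X), T.l v ^ 2 = R.aX v * T.q + T.p v ^ 2 * T.By v := by
  filter_upwards [T.lsq, T.psq, T.haX] with v h1 h2 h3
  have h4 : R.aX v ^ 2 = T.P v ^ 2 * T.p v ^ 2 := by
    calc R.aX v ^ 2 = (T.P v * T.p v) ^ 2 := by rw [← h3]
      _ = _ := by ring
  rw [h1, T.Mee_eq, h4, ← h2]
  unfold By
  ring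

theorem tBy : ∃ B0, Tendsto T.By V (𝓝 B0) := by
  obtain ⟨P0, hP, -⟩ := T.hP
  exact ⟨_, tendsto_const_nhds.add ((hP.pow 2).mul
    (tendsto_form tendsto_const_nhds R.tHX tendsto_const_nhds))⟩

/-! ### the kernels -/

noncomputable def F0 (u : L) (v : X) : ℝ := ((1 / T.p v) • R.ξ0) ⬝ᵥ (R.MX v *ᵥ R.ξ u)
noncomputable def Fe (u : L) (v : X) : ℝ := ((1 / T.l v) • T.eh) ⬝ᵥ (R.MX v *ᵥ R.ξ u)
def Fk (u : L) (v : X) : ℝ := T.k ⬝ᵥ (R.MX v *ᵥ R.ξ u)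

theorem dF0 : Dom (U : Filter L) (V : Filter X) T.F0 R.Φ := by
  have hκ := T.hκ
  have tH00 : Tendsto (fun v => R.ξ0 ⬝ᵥ (R.HX v *ᵥ R.ξ0)) V (𝓝 0) := by
    have := tendsto_form (tendsto_const_nhds (x := R.ξ0)) R.tHX (tendsto_const_nhds (x := R.ξ0))
    rwa [R.hγ] at this
  refine dom_pair (F := (U : Filter L)) R.psdX' (fun v => (1 / T.p v) • R.ξ0) R.ξ (C := 2)
    (by norm_num) ?_
  filter_upwards [T.pinX, T.psq, tH00.eventually (gt_mem_nhds (show (0 : ℝ) < T.κ / 4 by positivity))]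
    with v h1 h2 h3
  have e1 : ((1 / T.p v) • R.ξ0) ⬝ᵥ (R.MX v *ᵥ ((1 / T.p v) • R.ξ0)) =
      (1 / T.p v) ^ 2 * (R.xX v + R.aX v ^ 2 * (R.ξ0 ⬝ᵥ (R.HX v *ᵥ R.ξ0))) := by
    rw [Matrix.mulVec_smul, smul_dotProduct, dotProduct_smul, R.MX_form, R.n0, R.hB0, R.hD0,
      R.hg0, dotProduct_zero, smul_eq_mul, smul_eq_mul]
    ring
  rw [e1]
  have e2 : R.aX v ^ 2 * (R.ξ0 ⬝ᵥ (R.HX v *ᵥ R.ξ0)) ≤ R.aX v ^ 2 * (T.κ / 4) :=
    mul_le_mul_of_nonneg_left h3.le (sq_nonneg _)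
  have e3 : R.xX v + R.aX v ^ 2 * (R.ξ0 ⬝ᵥ (R.HX v *ᵥ R.ξ0)) ≤ 2 * T.p v ^ 2 := by
    rw [h2]; linarith
  by_cases hp0 : T.p v = 0
  · rw [hp0]; norm_num
  · have h4 : 0 < T.p v ^ 2 := by positivity
    rw [one_div, inv_pow, inv_mul_le_iff₀ h4]
    linarith

theorem dFe : Dom (U : Filter L) (V : Filter X) T.Fe R.Φ := by
  refine dom_pair (F := (U : Filter L)) R.psdX' (fun v => (1 / T.l v) • T.eh) R.ξ (C := 1)
    (by norm_num) ?_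
  filter_upwards [T.lsq, T.xnn] with v h1 h2
  have e1 : ((1 / T.l v) • T.eh) ⬝ᵥ (R.MX v *ᵥ ((1 / T.l v) • T.eh)) =
      (1 / T.l v) ^ 2 * T.Mee v := by
    rw [Matrix.mulVec_smul, smul_dotProduct, dotProduct_smul, smul_eq_mul, smul_eq_mul]
    unfold Mee
    ring
  rw [e1]
  by_cases hl0 : T.l v = 0
  · rw [hl0]; norm_num
  · have h4 : 0 < T.l v ^ 2 := by positivity
    rw [one_div, inv_pow, inv_mul_le_iff₀ h4, mul_one, h1]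
    linarith

theorem dFk : Dom (U : Filter L) (V : Filter X) T.Fk R.Φ := by
  have hκ := T.hκ
  refine dom_pair (F := (U : Filter L)) R.psdX' (fun v => T.k) R.ξ (C := T.κ + 1) (by linarith) ?_
  filter_upwards [T.tMkk.eventually (gt_mem_nhds (show T.κ < T.κ + 1 by linarith))] with v h1
  exact h1.le

theorem pF0 : ∀ᶠ v in (V : Filter X), ∀ u, T.p v * T.F0 u v = R.ξ0 ⬝ᵥ (R.MX v *ᵥ R.ξ u) := by
  filter_upwards [T.psq, T.haX] with v h1 h2 u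
  unfold F0
  rw [smul_dotProduct, smul_eq_mul]
  by_cases hp0 : T.p v = 0
  · have hx : R.xX v = 0 := by rw [← h1, hp0]; ring
    have ha : R.aX v = 0 := by rw [h2, hp0, mul_zero]
    have e1 : R.ξ0 ⬝ᵥ (R.MX v *ᵥ R.ξ u) = 0 := by
      rw [R.MX_form, R.sB0, R.sD0, hx, ha]; ring
    rw [e1]; ring
  · rw [← mul_assoc, mul_one_div_cancel hp0, one_mul]

theorem lFe : ∀ᶠ v in (V : Filter X), ∀ u, T.l v * T.Fe u v = T.eh ⬝ᵥ (R.MX v *ᵥ R.ξ u) := by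
  filter_upwards [T.lsq, T.Mee_nn, T.xnn, R.psdX'] with v h1 h2 h3 h4 u
  unfold Fe
  rw [smul_dotProduct, smul_eq_mul]
  by_cases hl0 : T.l v = 0
  · have hM : T.Mee v = 0 := by
      rw [hl0] at h1
      have : (0 : ℝ) = T.Mee v + R.xX v := by rw [← h1]; ring
      linarith
    have e1 : R.MX v *ᵥ T.eh = 0 := by
      refine (h4.dotProduct_mulVec_zero_iff T.eh).1 ?_
      rw [star_trivial]; exact hM
    rw [hl0, herm_swap h4.1, e1, dotProduct_zero]; ring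
  · rw [← mul_assoc, mul_one_div_cancel hl0, one_mul]

include T in
theorem hψ : GermFR (U : Filter L) (V : Filter X) (fun u v => R.ξ0 ⬝ᵥ (R.HX v *ᵥ R.ξ u)) 0 :=
  (germ_pairX R.tHX R.tξ R.ξ0).congr (fun _ _ => rfl) R.hγ.symm

/-- the dominated remainder -/
noncomputable def Dd (u : L) (v : X) : ℝ := T.om u * (T.eh ⬝ᵥ ((R.HX v - R.HL u) *ᵥ R.ξ u)) +
    T.μ * T.κ * T.XL u * (T.k ⬝ᵥ ((R.HX v - R.HL u) *ᵥ R.ξ u)) -
    T.rho u * (R.ξ0 ⬝ᵥ ((R.HX v - R.HL u) *ᵥ R.ξ u))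

theorem dDd : Dom (U : Filter L) (V : Filter X) T.Dd (fun u v => (R.aX v - R.aL u) ^ 2) := by
  have sal : SosF (U : Filter L) (V : Filter X) (fun u v => (R.aX v - R.aL u) ^ 2) := R.sosal
  exact (((dom_pairH sal R.N1 R.tξ T.eh).germ (GermFR.left T.tom)).add
      ((dom_pairH sal R.N1 R.tξ T.k).germ (GermFR.left (T.tX.const_mul (T.μ * T.κ))))).sub
      ((dom_pairH sal R.N1 R.tξ R.ξ0).germ (GermFR.left T.trho))

theorem hII : EqF (U : Filter L) (V : Filter X) T.F0 (fun u v => T.p v *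
      (1 + T.P v ^ 2 * (R.ξ0 ⬝ᵥ (R.HX v *ᵥ R.ξ u))) - T.κ * T.P v * T.XL u) := by
  refine EqF.of_eventually _ _ R.nrm (T.psq.and T.haX) fun u v hn hv => ?_
  obtain ⟨h1, h2⟩ := hv
  show ((1 / T.p v) • R.ξ0) ⬝ᵥ (R.MX v *ᵥ R.ξ u) = _
  rw [smul_dotProduct, smul_eq_mul, R.MX_form, R.sB0, R.sD0, T.sG0, hn, ← h1]
  by_cases hp0 : T.p v = 0
  · have hP0 : T.P v = 0 := by unfold P; rw [hp0, div_zero]
    rw [hp0, hP0]; simp
  · rw [h2]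
    field_simp
    ring

end C3D

end Vale.Agent.P256.H201
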