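import Vale.Agent.P256.H201.Dom

/-! The scalar core of the last case of the local analysis in four variables: from the exact
identity `(μκ²X²/a) α = ω l F_e + μκ X F_k - ρ p F₀ - α a' σ - a'² D` the difference
`α = a' - a` is dominated by `Φ`. -/

set_option linter.all false

namespace Vale.Agent.P256.H201

open Filter Topology Vale.Agent.P256 Vale.Agent.P256.H326

variable {L X : Type*} {F : Filter L} {G : Filter X}

theorem core_scalar {Φ : L → X → ℝ} (hΦ : SosF F G Φ) {κ μ : ℝ} (hκ : 0 < κ) (hμ : μ ≠ 0)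
    {aL XL om rho sig : L → ℝ} {aX p P l : X → ℝ} {τ0 P0 rho0 : ℝ}
    (haL : ∀ᶠ u in F, 0 < aL u ∧ 0 < XL u)
    (hτ : Tendsto (fun u => aL u / XL u) F (𝓝 τ0))
    (hrho : Tendsto rho F (𝓝 rho0)) (hsig : Tendsto sig F (𝓝 0))
    (hp : Tendsto p G (𝓝 0)) (hP : Tendsto P G (𝓝 P0)) (haX : ∀ᶠ v in G, aX v = P v * p v)
    {F0 Fe Fk ψ Dd c1 c2 c3 : L → X → ℝ} (hF0 : Dom F G F0 Φ) (hFe : Dom F G Fe Φ)
    (hFk : Dom F G Fk Φ) (hψ : GermFR F G ψ 0) {k1 k2 k3 : ℝ} (hc1 : GermFR F G c1 k1)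
    (hc2 : GermFR F G c2 k2) (hc3 : GermFR F G c3 k3)
    (hDd : Dom F G Dd (fun u v => (aX v - aL u) ^ 2))
    (hI : EqF F G (fun u v => μ * κ ^ 2 * (XL u ^ 2 / aL u) * (aX v - aL u))
      (fun u v => om u * l v * Fe u v + μ * κ * XL u * Fk u v - rho u * p v * F0 u v -
        (aX v - aL u) * aX v * sig u - aX v ^ 2 * Dd u v))
    (hII : EqF F G F0 (fun u v => p v * (1 + P v ^ 2 * ψ u v) - κ * P v * XL u))
    (hIII : EqF F G (fun u v => om u * l v)
      (fun u v => c1 u v * Fe u v + c2 u v * XL u + c3 u v * p v)) :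
    ∃ C : ℝ, 0 < C ∧ SosF F G (fun u v => C * Φ u v - (aX v - aL u) ^ 2) := by
  set al : L → X → ℝ := fun u v => aX v - aL u with hal
  have alfr : FR al := (FR.right aX).sub (FR.left aL)
  set j : L → X → ℝ := fun u v => P v ^ 2 * ψ u v with hj
  have jg : GermFR F G j 0 := by
    refine (((GermFR.right hP).mul (GermFR.right hP)).mul hψ).congr (fun u v => ?_) ?_
    · show P v ^ 2 * ψ u v = _
      ring
    · ring
  set th : L → X → ℝ := fun u v => κ * P v ^ 2 - aL u / XL u * (1 + j u v) with hth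
  have thg : GermFR F G th (κ * (P0 * P0) - τ0 * (1 + 0)) := by
    refine ((((GermFR.right hP).mul (GermFR.right hP)).smul κ).sub
      ((GermFR.left hτ).mul ((GermFR.const 1).add jg))).congr (fun u v => ?_) rfl
    show κ * P v ^ 2 - aL u / XL u * (1 + j u v) = _
    ring
  set be : L → X → ℝ := fun u v => XL u * th u v with hbe
  have befr : FR be := (FR.left XL).mul (germ_fr thg)
  set Q : L → X → ℝ := fun u v => Φ u v + be u v ^ 2 + al u v ^ 2 with hQ
  have sbe : SosF F G (fun u v => be u v ^ 2) := SosF.sq befr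
  have sal : SosF F G (fun u v => al u v ^ 2) := SosF.sq alfr
  have hΦQ : SosF F G (fun u v => Q u v - Φ u v) := (sbe.add sal).congr' fun u v => by
    show Φ u v + be u v ^ 2 + al u v ^ 2 - Φ u v = _; ring
  have dal : Dom F G al Q := (Dom.self alfr).mono ((hΦ.add sbe).congr' fun u v => by
    show Φ u v + be u v ^ 2 + al u v ^ 2 - al u v ^ 2 = _; ring)
  have dbe : Dom F G be Q := (Dom.self befr).mono ((hΦ.add sal).congr' fun u v => by
    show Φ u v + be u v ^ 2 + al u v ^ 2 - be u v ^ 2 = _; ring)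
  have dDd : Dom F G Dd Q := hDd.mono ((hΦ.add sbe).congr' fun u v => by
    show Φ u v + be u v ^ 2 + al u v ^ 2 - (aX v - aL u) ^ 2 = _; ring)
  have dF0 := hF0.mono hΦQ
  have dFe := hFe.mono hΦQ
  -- the multiplier
  set thh : L → X → ℝ := fun u v => (1 / (μ * κ ^ 2)) * (aL u / XL u) * th u v with hthh
  have thhg : GermFR F G thh ((1 / (μ * κ ^ 2)) * τ0 * (κ * (P0 * P0) - τ0 * (1 + 0))) := by
    refine (((GermFR.left hτ).smul (1 / (μ * κ ^ 2))).mul thg).congr (fun u v => ?_) rfl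
    rfl
  have d1 : Dom F G (fun u v => thh u v * XL u) Q := by
    refine (dbe.germ ((GermFR.left hτ).smul (1 / (μ * κ ^ 2)))).congr' fun u v => ?_
    show (1 / (μ * κ ^ 2)) * (aL u / XL u) * th u v * XL u = _ * (XL u * th u v)
    ring
  have thpfr : FR (fun u v => thh u v * p v) := (germ_fr thhg).mul (FR.right p)
  have d2 : Dom F G (fun u v => thh u v * p v) Q := by
    refine Dom.of_unit thpfr jg ?_
    have h1 : Dom F G (fun u v => thh u v * F0 u v + (κ * P v) * (thh u v * XL u)) Q :=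
      (dF0.germ thhg).add (d1.germ ((GermFR.right hP).smul κ))
    refine h1.congr (((FR.const 1).add (germ_fr jg)).mul thpfr) ?_
    obtain ⟨A, hA, B, hB, e⟩ := hII
    refine ⟨A, hA, B, hB, fun u hu v hv => ?_⟩
    have e1 : F0 u v = p v * (1 + j u v) - κ * P v * XL u := e u hu v hv
    show (1 + j u v) * (thh u v * p v) = thh u v * F0 u v + (κ * P v) * (thh u v * XL u)
    rw [e1]
    ring
  have d3 : Dom F G (fun u v => thh u v * (om u * l v)) Q := by
    have h1 : Dom F G (fun u v => c1 u v * (thh u v * Fe u v) + c2 u v * (thh u v * XL u) +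
        c3 u v * (thh u v * p v)) Q :=
      (((dFe.germ thhg).germ hc1).add (d1.germ hc2)).add (d2.germ hc3)
    refine h1.congr ((germ_fr thhg).mul (FR.mulfun om l)) ?_
    obtain ⟨A, hA, B, hB, e⟩ := hIII
    refine ⟨A, hA, B, hB, fun u hu v hv => ?_⟩
    have e1 : om u * l v = c1 u v * Fe u v + c2 u v * XL u + c3 u v * p v := e u hu v hv
    show thh u v * (om u * l v) = c1 u v * (thh u v * Fe u v) + c2 u v * (thh u v * XL u) +
        c3 u v * (thh u v * p v)
    rw [e1]
    ring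
  -- the product `α β`
  have a1 : Absb F G Φ Q (fun u v => al u v * be u v) := by
    have t1 := Absb.mul hFe d3
    have t2 := Absb.mul (hFk.smul (μ * κ)) d1
    have t3 := Absb.mul (hF0.germ (GermFR.left hrho)) d2
    have hPs : GermFR F G (fun u v => P v * sig u) 0 :=
      ((GermFR.right hP).mul (GermFR.left hsig)).congr (fun u v => rfl) (by ring)
    have t4 := Absb.of_sml (Φ := Φ) hΦ (d2.germ_small hPs) dal
    have hPp : GermFR F G (fun u v => P v ^ 2 * p v) 0 :=
      (((GermFR.right hP).mul (GermFR.right hP)).mul (GermFR.right hp)).congr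
        (fun u v => by ring) (by ring)
    have t5 := Absb.of_sml (Φ := Φ) hΦ (d2.germ_small hPp) dDd
    refine ((((t1.add t2).sub t3).sub t4).sub t5).congr ?_
    obtain ⟨A, hA, B, hB, e⟩ := hI
    refine ⟨A ∩ {u | 0 < aL u ∧ 0 < XL u}, inter_mem hA haL, B ∩ {v | aX v = P v * p v},
      inter_mem hB haX, fun u hu v hv => ?_⟩
    have e1 : μ * κ ^ 2 * (XL u ^ 2 / aL u) * (aX v - aL u) =
      om u * l v * Fe u v + μ * κ * XL u * Fk u v - rho u * p v * F0 u v -
        (aX v - aL u) * aX v * sig u - aX v ^ 2 * Dd u v := e u hu.1 v hv.1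
    obtain ⟨ha, hX⟩ := hu.2
    have hav : aX v = P v * p v := hv.2
    have e2 : al u v * be u v = thh u v * (μ * κ ^ 2 * (XL u ^ 2 / aL u) * (aX v - aL u)) := by
      show (aX v - aL u) * (XL u * th u v) =
        1 / (μ * κ ^ 2) * (aL u / XL u) * th u v * (μ * κ ^ 2 * (XL u ^ 2 / aL u) * (aX v - aL u))
      have := ha.ne'
      have := hX.ne'
      have := hκ.ne'
      field_simp
    show al u v * be u v = Fe u v * (thh u v * (om u * l v)) +
      μ * κ * Fk u v * (thh u v * XL u) - rho u * F0 u v * (thh u v * p v) -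
      P v * sig u * (thh u v * p v) * (aX v - aL u) -
      P v ^ 2 * p v * (thh u v * p v) * Dd u v
    rw [e2, e1]
    have e3 : aX v ^ 2 = P v ^ 2 * p v * p v := by rw [hav]; ring
    have e4 : (aX v - aL u) * aX v * sig u = (aX v - aL u) * (P v * p v) * sig u := by
      rw [← hav]
    rw [e3, e4]
    ring
  -- `α (1+j) = P F₀ + β`
  have e0 : EqF F G (fun u v => (1 + j u v) * al u v) (fun u v => P v * F0 u v + be u v) := by
    obtain ⟨A, hA, B, hB, e⟩ := hII
    refine ⟨A ∩ {u | 0 < aL u ∧ 0 < XL u}, inter_mem hA haL, B ∩ {v | aX v = P v * p v},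
      inter_mem hB haX, fun u hu v hv => ?_⟩
    obtain ⟨ha, hX⟩ := hu.2
    have hav : aX v = P v * p v := hv.2
    show (1 + j u v) * (aX v - aL u) = P v * F0 u v + XL u * (κ * P v ^ 2 - aL u / XL u * (1 + j u v))
    have e1 : F0 u v = p v * (1 + j u v) - κ * P v * XL u := e u hu.1 v hv.1
    rw [e1, hav]
    have := hX.ne'
    field_simp
    ring
  have a2 : Absb F G Φ Q (fun u v => be u v ^ 2) := by
    have t1 := Absb.mul (hF0.germ (GermFR.right hP)) dbe
    have t2 := Absb.of_sml (Φ := Φ) hΦ (dal.germ_small jg) dbe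
    refine ((a1.add t2).sub t1).congr ?_
    obtain ⟨A, hA, B, hB, e⟩ := e0
    refine ⟨A, hA, B, hB, fun u hu v hv => ?_⟩
    have e1 := e u hu v hv
    simp only at e1 ⊢
    have e2 : be u v = (1 + j u v) * al u v - P v * F0 u v := by rw [e1]; ring
    calc be u v ^ 2 = be u v * be u v := by ring
      _ = be u v * ((1 + j u v) * al u v - P v * F0 u v) := by rw [← e2]
      _ = _ := by ring
  -- `α² ≤ C (Φ + β²)`
  have a3 : Dom F G al (fun u v => Φ u v + be u v ^ 2) := by
    refine Dom.of_unit alfr jg ?_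
    have h1 : Dom F G (fun u v => P v * F0 u v + be u v) (fun u v => Φ u v + be u v ^ 2) :=
      ((hF0.mono (sbe.congr' fun u v => by ring)).germ (GermFR.right hP)).add
        ((Dom.self befr).mono (hΦ.congr' fun u v => by ring))
    exact h1.congr (((FR.const 1).add (germ_fr jg)).mul alfr) e0
  obtain ⟨-, C1, hC1, s1⟩ := a3
  have hδ : 0 < 1 / (2 * (1 + C1)) := by positivity
  obtain ⟨C2, hC2, s2, -⟩ := a2 _ hδ
  set δ : ℝ := 1 / (2 * (1 + C1)) with hδd
  have hδ1 : δ * (1 + C1) = 1 / 2 := by rw [hδd]; field_simp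
  -- `β² ≤ 2 (C2 + 1/2) Φ`
  have s3 : SosF F G (fun u v => (2 * C2 + 1) * Φ u v - be u v ^ 2) := by
    refine ((s2.add (s1.smul hδ.le)).smul (c := 2) (by norm_num)).congr' fun u v => ?_
    show (2 * C2 + 1) * Φ u v - be u v ^ 2 =
      2 * (C2 * Φ u v + δ * (Φ u v + be u v ^ 2 + al u v ^ 2) - be u v ^ 2 +
        δ * (C1 * (Φ u v + be u v ^ 2) - al u v ^ 2))
    have : 2 * (C2 * Φ u v + δ * (Φ u v + be u v ^ 2 + al u v ^ 2) - be u v ^ 2 +
        δ * (C1 * (Φ u v + be u v ^ 2) - al u v ^ 2)) =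
        2 * C2 * Φ u v + 2 * (δ * (1 + C1)) * (Φ u v + be u v ^ 2) - 2 * be u v ^ 2 := by ring
    rw [this, hδ1]; ring
  refine ⟨C1 * (2 * C2 + 2), by positivity, (s1.add (s3.smul hC1.le)).congr' fun u v => ?_⟩
  show _ = C1 * (Φ u v + be u v ^ 2) - (aX v - aL u) ^ 2 +
    C1 * ((2 * C2 + 1) * Φ u v - be u v ^ 2)
  ring

end Vale.Agent.P256.H201
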