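import Vale.Agent.P256.H326.Ultra

/-! Domination calculus for kernels: `r² ≤ C Q`, `r² ≤ δ Q` for all `δ`, and absorption, all in
the sense of sums of squares along a pair of filters. -/

set_option linter.all false

namespace Vale.Agent.P256.H201

open Filter Topology Vale.Agent.P256 Vale.Agent.P256.H326

variable {L X : Type*} {F : Filter L} {G : Filter X}

theorem EqF.comb2 {f f' g g' : L → X → ℝ} (φ : ℝ → ℝ → ℝ) (h1 : EqF F G f f')
    (h2 : EqF F G g g') : EqF F G (fun l x => φ (f l x) (g l x)) (fun l x => φ (f' l x) (g' l x)) := by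
  obtain ⟨A, hA, B, hB, e⟩ := h1
  obtain ⟨A', hA', B', hB', e'⟩ := h2
  refine ⟨A ∩ A', inter_mem hA hA', B ∩ B', inter_mem hB hB', fun l hl x hx => ?_⟩
  show φ (f l x) (g l x) = φ (f' l x) (g' l x)
  rw [e l hl.1 x hx.1, e' l hl.2 x hx.2]

/-- `r² ≤ C Q` for some `C` -/
structure Dom (F : Filter L) (G : Filter X) (r Q : L → X → ℝ) : Prop where
  fr : FR r
  le : ∃ C : ℝ, 0 < C ∧ SosF F G (fun l x => C * Q l x - r l x ^ 2)

/-- `r² ≤ δ Q` for all `δ > 0` -/
structure Sml (F : Filter L) (G : Filter X) (r Q : L → X → ℝ) : Prop where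
  fr : FR r
  le : ∀ δ : ℝ, 0 < δ → SosF F G (fun l x => δ * Q l x - r l x ^ 2)

/-- `±R ≤ C Φ + δ Q` for all `δ > 0` -/
def Absb (F : Filter L) (G : Filter X) (Φ Q R : L → X → ℝ) : Prop :=
  ∀ δ : ℝ, 0 < δ → ∃ C : ℝ, 0 < C ∧ SosF F G (fun l x => C * Φ l x + δ * Q l x - R l x) ∧
    SosF F G (fun l x => C * Φ l x + δ * Q l x + R l x)

theorem Sml.dom {r Q : L → X → ℝ} (H : Sml F G r Q) : Dom F G r Q :=
  ⟨H.fr, 1, one_pos, H.le 1 one_pos⟩

theorem germ_bdd {h : L → X → ℝ} {c : ℝ} (H : GermFR F G h c) :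
    SosF F G (fun l x => (c ^ 2 + 1) - h l x ^ 2) := by
  refine (GermFR.sosF (F := F) (G := G) (h := fun l x => (c ^ 2 + 1) - h l x * h l x)
    (c := (c ^ 2 + 1) - c * c) ((GermFR.const _).sub (H.mul H)) ?_).congr' fun l x => ?_
  · nlinarith
  · ring

theorem germ_small {h : L → X → ℝ} (H : GermFR F G h 0) {δ : ℝ} (hδ : 0 < δ) :
    SosF F G (fun l x => δ - h l x ^ 2) := by
  refine (GermFR.sosF (F := F) (G := G) (h := fun l x => δ - h l x * h l x)
    (c := δ - 0 * 0) ((GermFR.const _).sub (H.mul H)) ?_).congr' fun l x => ?_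
  · linarith
  · ring

theorem germ_fr {h : L → X → ℝ} {c : ℝ} (H : GermFR F G h c) : FR h := by
  obtain ⟨n, a, f, a0, f0, ha, hf, hh, hc⟩ := H
  exact ⟨n, a, f, hh⟩

theorem Dom.self {r : L → X → ℝ} (hr : FR r) : Dom F G r (fun l x => r l x ^ 2) :=
  ⟨hr, 1, one_pos, (SosF.zero (F := F) (G := G)).congr' fun l x => by ring⟩

theorem Dom.mono {r Q Q' : L → X → ℝ} (H : Dom F G r Q)
    (h : SosF F G (fun l x => Q' l x - Q l x)) : Dom F G r Q' := by
  obtain ⟨hf, C, hC, hs⟩ := H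
  refine ⟨hf, C, hC, (hs.add (h.smul hC.le)).congr' fun l x => by ring⟩

theorem Dom.mono' {r Q Q' : L → X → ℝ} (H : Dom F G r Q) {K : ℝ} (hK : 0 < K)
    (h : SosF F G (fun l x => K * Q' l x - Q l x)) : Dom F G r Q' := by
  obtain ⟨hf, C, hC, hs⟩ := H
  refine ⟨hf, C * K, mul_pos hC hK, (hs.add (h.smul hC.le)).congr' fun l x => by ring⟩

theorem Sml.mono {r Q Q' : L → X → ℝ} (H : Sml F G r Q)
    (h : SosF F G (fun l x => Q' l x - Q l x)) : Sml F G r Q' :=
  ⟨H.fr, fun δ hδ => ((H.le δ hδ).add (h.smul hδ.le)).congr' fun l x => by ring⟩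

theorem Dom.congr {r r' Q : L → X → ℝ} (H : Dom F G r Q) (hf : FR r') (e : EqF F G r' r) :
    Dom F G r' Q := by
  obtain ⟨_, C, hC, hs⟩ := H
  refine ⟨hf, C, hC, hs.congr ?_⟩
  exact EqF.comb2 (fun a b => C * a - b ^ 2) (EqF.refl Q) e

theorem Sml.congr {r r' Q : L → X → ℝ} (H : Sml F G r Q) (hf : FR r') (e : EqF F G r' r) :
    Sml F G r' Q :=
  ⟨hf, fun δ hδ => (H.le δ hδ).congr (EqF.comb2 (fun a b => δ * a - b ^ 2) (EqF.refl Q) e)⟩

theorem Dom.congr' {r r' Q : L → X → ℝ} (H : Dom F G r Q) (e : ∀ l x, r' l x = r l x) :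
    Dom F G r' Q := by
  have : r' = r := funext fun l => funext fun x => e l x
  rw [this]; exact H

theorem Sml.congr' {r r' Q : L → X → ℝ} (H : Sml F G r Q) (e : ∀ l x, r' l x = r l x) :
    Sml F G r' Q := by
  have : r' = r := funext fun l => funext fun x => e l x
  rw [this]; exact H

theorem Dom.add {r s Q : L → X → ℝ} (H : Dom F G r Q) (H' : Dom F G s Q) :
    Dom F G (fun l x => r l x + s l x) Q := by
  obtain ⟨hf, C, hC, hs⟩ := H
  obtain ⟨hf', C', hC', hs'⟩ := H'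
  refine ⟨hf.add hf', 2 * (C + C'), by positivity, ?_⟩
  have h1 : SosF F G (fun l x => (r l x - s l x) ^ 2) := SosF.sq (hf.sub hf')
  exact (((hs.smul (c := 2) (by norm_num)).add (hs'.smul (c := 2) (by norm_num))).add h1).congr'
    fun l x => by ring

theorem Sml.add {r s Q : L → X → ℝ} (H : Sml F G r Q) (H' : Sml F G s Q) :
    Sml F G (fun l x => r l x + s l x) Q := by
  refine ⟨H.fr.add H'.fr, fun δ hδ => ?_⟩
  have h1 : SosF F G (fun l x => (r l x - s l x) ^ 2) := SosF.sq (H.fr.sub H'.fr)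
  have hs := H.le (δ / 4) (by positivity)
  have hs' := H'.le (δ / 4) (by positivity)
  exact (((hs.smul (c := 2) (by norm_num)).add (hs'.smul (c := 2) (by norm_num))).add h1).congr'
    fun l x => by ring

theorem Dom.germ {r Q h : L → X → ℝ} {c : ℝ} (H : Dom F G r Q) (hh : GermFR F G h c) :
    Dom F G (fun l x => h l x * r l x) Q := by
  obtain ⟨hf, C, hC, hs⟩ := H
  refine ⟨(germ_fr hh).mul hf, (c ^ 2 + 1) * C, by positivity, ?_⟩
  have h1 := (germ_bdd hh).mul (SosF.sq (F := F) (G := G) hf)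
  have h2 := hs.smul (c := c ^ 2 + 1) (by positivity)
  exact (h1.add h2).congr' fun l x => by ring

theorem Dom.germ_small {r Q h : L → X → ℝ} (H : Dom F G r Q) (hh : GermFR F G h 0) :
    Sml F G (fun l x => h l x * r l x) Q := by
  obtain ⟨hf, C, hC, hs⟩ := H
  refine ⟨(germ_fr hh).mul hf, fun δ hδ => ?_⟩
  have hη : 0 < δ / C := by positivity
  have h1 := (H201.germ_small hh hη).mul (SosF.sq (F := F) (G := G) hf)
  have h2 := hs.smul (c := δ / C) hη.le
  refine (h1.add h2).congr' fun l x => ?_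
  have : δ / C * C = δ := div_mul_cancel₀ _ hC.ne'
  have e : δ / C * (C * Q l x - r l x ^ 2) = δ * Q l x - δ / C * r l x ^ 2 := by
    rw [mul_sub, ← mul_assoc, this]
  rw [e]; ring

theorem Sml.germ {r Q h : L → X → ℝ} {c : ℝ} (H : Sml F G r Q) (hh : GermFR F G h c) :
    Sml F G (fun l x => h l x * r l x) Q := by
  refine ⟨(germ_fr hh).mul H.fr, fun δ hδ => ?_⟩
  have hη : 0 < δ / (c ^ 2 + 1) := by positivity
  have h1 := (germ_bdd hh).mul (SosF.sq (F := F) (G := G) H.fr)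
  have h2 := (H.le _ hη).smul (c := c ^ 2 + 1) (by positivity)
  refine (h1.add h2).congr' fun l x => ?_
  have : (c ^ 2 + 1) * (δ / (c ^ 2 + 1)) = δ := mul_div_cancel₀ _ (by positivity)
  have e : (c ^ 2 + 1) * (δ / (c ^ 2 + 1) * Q l x - r l x ^ 2) =
      δ * Q l x - (c ^ 2 + 1) * r l x ^ 2 := by
    rw [mul_sub, ← mul_assoc, this]
  rw [e]; ring

theorem Dom.smul {r Q : L → X → ℝ} (c : ℝ) (H : Dom F G r Q) :
    Dom F G (fun l x => c * r l x) Q := H.germ (GermFR.const c)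

theorem Sml.smul {r Q : L → X → ℝ} (c : ℝ) (H : Sml F G r Q) :
    Sml F G (fun l x => c * r l x) Q := H.germ (GermFR.const c)

theorem Dom.neg {r Q : L → X → ℝ} (H : Dom F G r Q) : Dom F G (fun l x => - r l x) Q :=
  (H.smul (-1)).congr' fun l x => by ring

theorem Sml.neg {r Q : L → X → ℝ} (H : Sml F G r Q) : Sml F G (fun l x => - r l x) Q :=
  (H.smul (-1)).congr' fun l x => by ring

theorem Dom.sub {r s Q : L → X → ℝ} (H : Dom F G r Q) (H' : Dom F G s Q) :
    Dom F G (fun l x => r l x - s l x) Q := (H.add H'.neg).congr' fun l x => by ring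

theorem Sml.sub {r s Q : L → X → ℝ} (H : Sml F G r Q) (H' : Sml F G s Q) :
    Sml F G (fun l x => r l x - s l x) Q := (H.add H'.neg).congr' fun l x => by ring

theorem Dom.sum {ι : Type*} (s : Finset ι) {r : ι → L → X → ℝ} {Q : L → X → ℝ}
    (hQ : SosF F G Q) (H : ∀ i ∈ s, Dom F G (r i) Q) :
    Dom F G (fun l x => ∑ i ∈ s, r i l x) Q := by
  classical
  induction s using Finset.induction_on with
  | empty =>
    refine ⟨(FR.const 0).congr fun l x => by simp, 1, one_pos, hQ.congr' fun l x => by simp⟩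
  | insert i s hi ih =>
    refine ((H i (Finset.mem_insert_self i s)).add
      (ih fun j hj => H j (Finset.mem_insert_of_mem hj))).congr' fun l x => ?_
    rw [Finset.sum_insert hi]

theorem Sml.sum {ι : Type*} (s : Finset ι) {r : ι → L → X → ℝ} {Q : L → X → ℝ}
    (hQ : SosF F G Q) (H : ∀ i ∈ s, Sml F G (r i) Q) :
    Sml F G (fun l x => ∑ i ∈ s, r i l x) Q := by
  classical
  induction s using Finset.induction_on with
  | empty =>
    refine ⟨(FR.const 0).congr fun l x => by simp, fun δ hδ => (hQ.smul hδ.le).congr'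
      fun l x => by simp⟩
  | insert i s hi ih =>
    refine ((H i (Finset.mem_insert_self i s)).add
      (ih fun j hj => H j (Finset.mem_insert_of_mem hj))).congr' fun l x => ?_
    rw [Finset.sum_insert hi]

/-- a kernel which becomes dominated after multiplication by a unit `1 + j` is dominated -/
theorem Dom.of_unit {r Q j : L → X → ℝ} (hr : FR r) (hj : GermFR F G j 0)
    (H : Dom F G (fun l x => (1 + j l x) * r l x) Q) : Dom F G r Q := by
  obtain ⟨hf, C, hC, hs⟩ := H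
  refine ⟨hr, 4 * C, by positivity, ?_⟩
  -- r² ≤ 2 (r(1+j))² + 2 r² j², j² ≤ 1/4
  have h1 := (H201.germ_small hj (δ := 1 / 4) (by norm_num)).mul (SosF.sq (F := F) (G := G) hr)
  have h2 : SosF F G (fun l x => ((1 + j l x) * r l x + j l x * r l x) ^ 2) :=
    SosF.sq (hf.add ((germ_fr hj).mul hr))
  refine (((hs.smul (c := 4) (by norm_num)).add (h1.smul (c := 4) (by norm_num))).add
    (h2.smul (c := 2) (by norm_num))).congr' fun l x => ?_
  ring

/-! ### Absorption -/

theorem Absb.congr {Φ Q R R' : L → X → ℝ} (H : Absb F G Φ Q R) (e : EqF F G R' R) :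
    Absb F G Φ Q R' := by
  intro δ hδ
  obtain ⟨C, hC, h1, h2⟩ := H δ hδ
  refine ⟨C, hC, h1.congr ?_, h2.congr ?_⟩
  · exact EqF.comb2 (fun a b => a - b) (EqF.refl (fun l x => C * Φ l x + δ * Q l x)) e
  · exact EqF.comb2 (fun a b => a + b) (EqF.refl (fun l x => C * Φ l x + δ * Q l x)) e

theorem Absb.add {Φ Q R R' : L → X → ℝ} (H : Absb F G Φ Q R) (H' : Absb F G Φ Q R') :
    Absb F G Φ Q (fun l x => R l x + R' l x) := by
  intro δ hδ
  obtain ⟨C, hC, h1, h2⟩ := H (δ / 2) (by positivity)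
  obtain ⟨C', hC', h1', h2'⟩ := H' (δ / 2) (by positivity)
  refine ⟨C + C', by positivity, (h1.add h1').congr' fun l x => by ring,
    (h2.add h2').congr' fun l x => by ring⟩

theorem Absb.neg {Φ Q R : L → X → ℝ} (H : Absb F G Φ Q R) :
    Absb F G Φ Q (fun l x => - R l x) := by
  intro δ hδ
  obtain ⟨C, hC, h1, h2⟩ := H δ hδ
  exact ⟨C, hC, h2.congr' fun l x => by ring, h1.congr' fun l x => by ring⟩

theorem Absb.sub {Φ Q R R' : L → X → ℝ} (H : Absb F G Φ Q R) (H' : Absb F G Φ Q R') :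
    Absb F G Φ Q (fun l x => R l x - R' l x) :=
  (H.add H'.neg).congr (EqF.of_eventually (fun _ => True) (fun _ => True) (by simp) (by simp)
    fun l x _ _ => by ring)

/-- products of a kernel dominated by `Φ` and one dominated by `Q` -/
theorem Absb.mul {Φ Q r s : L → X → ℝ} (hr : Dom F G r Φ) (hs : Dom F G s Q) :
    Absb F G Φ Q (fun l x => r l x * s l x) := by
  intro δ hδ
  obtain ⟨fr, C, hC, h1⟩ := hr
  obtain ⟨fs, D, hD, h2⟩ := hs
  -- t := δ/D ; rs ≤ (1/(4t)) r² + t s²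
  set t : ℝ := δ / D with ht
  have htpos : 0 < t := by positivity
  have htD : t * D = δ := div_mul_cancel₀ _ hD.ne'
  set k : ℝ := 1 / (4 * t) with hk
  have hkpos : 0 < k := by positivity
  have hkt : k * t = 1 / 4 := by
    rw [hk]; field_simp
  have hsq : Real.sqrt k * Real.sqrt t = 1 / 2 := by
    rw [← Real.sqrt_mul hkpos.le, hkt, show (1 / 4 : ℝ) = (1 / 2) ^ 2 by norm_num,
      Real.sqrt_sq (by norm_num)]
  have hsk : Real.sqrt k ^ 2 = k := Real.sq_sqrt hkpos.le
  have hst : Real.sqrt t ^ 2 = t := Real.sq_sqrt htpos.le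
  have h3 : SosF F G (fun l x => (Real.sqrt k * r l x - Real.sqrt t * s l x) ^ 2) :=
    SosF.sq ((fr.smul _).sub (fs.smul _))
  have h4 : SosF F G (fun l x => (Real.sqrt k * r l x + Real.sqrt t * s l x) ^ 2) :=
    SosF.sq ((fr.smul _).add (fs.smul _))
  have h5 := (h1.smul hkpos.le).add (h2.smul htpos.le)
  refine ⟨k * C, by positivity, (h5.add h3).congr' fun l x => ?_,
    (h5.add h4).congr' fun l x => ?_⟩
  · have e : (Real.sqrt k * r l x - Real.sqrt t * s l x) ^ 2 =
        k * r l x ^ 2 + t * s l x ^ 2 - r l x * s l x := by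
      calc _ = Real.sqrt k ^ 2 * r l x ^ 2 + Real.sqrt t ^ 2 * s l x ^ 2 -
            2 * (Real.sqrt k * Real.sqrt t) * (r l x * s l x) := by ring
        _ = _ := by rw [hsk, hst, hsq]; ring
    rw [e, ← htD]; ring
  · have e : (Real.sqrt k * r l x + Real.sqrt t * s l x) ^ 2 =
        k * r l x ^ 2 + t * s l x ^ 2 + r l x * s l x := by
      calc _ = Real.sqrt k ^ 2 * r l x ^ 2 + Real.sqrt t ^ 2 * s l x ^ 2 +
            2 * (Real.sqrt k * Real.sqrt t) * (r l x * s l x) := by ring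
        _ = _ := by rw [hsk, hst, hsq]; ring
    rw [e, ← htD]; ring

/-- `±rs ≤ δ Q` for `r` small and `s` dominated -/
theorem Sml.mul_le {Q r s : L → X → ℝ} (hr : Sml F G r Q) (hs : Dom F G s Q) (δ : ℝ) (hδ : 0 < δ) :
    SosF F G (fun l x => δ * Q l x - r l x * s l x) ∧
      SosF F G (fun l x => δ * Q l x + r l x * s l x) := by
  obtain ⟨fs, D, hD, h2⟩ := hs
  have fr := hr.fr
  set t : ℝ := δ / (2 * D) with ht
  have htpos : 0 < t := by positivity
  have htD : t * D = δ / 2 := by rw [ht]; field_simp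
  set k : ℝ := 1 / (4 * t) with hk
  have hkpos : 0 < k := by positivity
  have hkt : k * t = 1 / 4 := by
    rw [hk]; field_simp
  have hsq : Real.sqrt k * Real.sqrt t = 1 / 2 := by
    rw [← Real.sqrt_mul hkpos.le, hkt, show (1 / 4 : ℝ) = (1 / 2) ^ 2 by norm_num,
      Real.sqrt_sq (by norm_num)]
  have hsk : Real.sqrt k ^ 2 = k := Real.sq_sqrt hkpos.le
  have hst : Real.sqrt t ^ 2 = t := Real.sq_sqrt htpos.le
  have h3 : SosF F G (fun l x => (Real.sqrt k * r l x - Real.sqrt t * s l x) ^ 2) :=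
    SosF.sq ((fr.smul _).sub (fs.smul _))
  have h4 : SosF F G (fun l x => (Real.sqrt k * r l x + Real.sqrt t * s l x) ^ 2) :=
    SosF.sq ((fr.smul _).add (fs.smul _))
  have h1 := hr.le (δ / (2 * k)) (by positivity)
  have hkk : k * (δ / (2 * k)) = δ / 2 := by field_simp
  have h5 := (h1.smul hkpos.le).add (h2.smul htpos.le)
  have e5 : ∀ l x, k * (δ / (2 * k) * Q l x - r l x ^ 2) + t * (D * Q l x - s l x ^ 2) =
      δ * Q l x - k * r l x ^ 2 - t * s l x ^ 2 := by
    intro l x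
    have : k * (δ / (2 * k) * Q l x - r l x ^ 2) + t * (D * Q l x - s l x ^ 2) =
      (k * (δ / (2 * k))) * Q l x + (t * D) * Q l x - k * r l x ^ 2 - t * s l x ^ 2 := by ring
    rw [this, hkk, htD]; ring
  refine ⟨(h5.add h3).congr' fun l x => ?_, (h5.add h4).congr' fun l x => ?_⟩
  · have e : (Real.sqrt k * r l x - Real.sqrt t * s l x) ^ 2 =
        k * r l x ^ 2 + t * s l x ^ 2 - r l x * s l x := by
      calc _ = Real.sqrt k ^ 2 * r l x ^ 2 + Real.sqrt t ^ 2 * s l x ^ 2 -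
            2 * (Real.sqrt k * Real.sqrt t) * (r l x * s l x) := by ring
        _ = _ := by rw [hsk, hst, hsq]; ring
    rw [e, e5]; ring
  · have e : (Real.sqrt k * r l x + Real.sqrt t * s l x) ^ 2 =
        k * r l x ^ 2 + t * s l x ^ 2 + r l x * s l x := by
      calc _ = Real.sqrt k ^ 2 * r l x ^ 2 + Real.sqrt t ^ 2 * s l x ^ 2 +
            2 * (Real.sqrt k * Real.sqrt t) * (r l x * s l x) := by ring
        _ = _ := by rw [hsk, hst, hsq]; ring
    rw [e, e5]; ring

theorem Absb.of_sml {Φ Q r s : L → X → ℝ} (hΦ : SosF F G Φ) (hr : Sml F G r Q)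
    (hs : Dom F G s Q) : Absb F G Φ Q (fun l x => r l x * s l x) := by
  intro δ hδ
  obtain ⟨h1, h2⟩ := hr.mul_le hs δ hδ
  exact ⟨1, one_pos, (h1.add hΦ).congr' fun l x => by ring, (h2.add hΦ).congr' fun l x => by ring⟩

/-- `r ≤ √C Q`-type bound for products of two dominated kernels -/
theorem Dom.mul_le {Q r s : L → X → ℝ} (hr : Dom F G r Q) (hs : Dom F G s Q) :
    ∃ C : ℝ, 0 < C ∧ SosF F G (fun l x => C * Q l x - r l x * s l x) ∧
      SosF F G (fun l x => C * Q l x + r l x * s l x) := by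
  obtain ⟨fr, C, hC, h1⟩ := hr
  obtain ⟨fs, D, hD, h2⟩ := hs
  have h3 : SosF F G (fun l x => (r l x - s l x) ^ 2) := SosF.sq (fr.sub fs)
  have h4 : SosF F G (fun l x => (r l x + s l x) ^ 2) := SosF.sq (fr.add fs)
  refine ⟨(C + D) / 2, by positivity, (((h1.add h2).add h3).smul (c := 1 / 2)
    (by norm_num)).congr' fun l x => by ring, (((h1.add h2).add h4).smul (c := 1 / 2)
    (by norm_num)).congr' fun l x => by ring⟩

end Vale.Agent.P256.H201
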