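import Vale.Agent.P256.H201.Pen

/-! The frame of a real symmetric pencil `x 1 + b B + D + a G₁ + a² H` along two ultrafilters, and
general kernel lemmas. -/

set_option linter.all false

namespace Vale.Agent.P256.H201

open Filter Topology Matrix Vale.Agent.P256 Vale.Agent.P256.H326 Vale.Agent.P256.H387

section Aux

variable {L X ι : Type*} [Fintype ι] {F : Filter L} {G : Filter X}

theorem psd_cs_sq {M : Matrix ι ι ℝ} (h : M.PosSemidef) (u v : ι → ℝ) :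
    (u ⬝ᵥ (M *ᵥ v)) ^ 2 ≤ (u ⬝ᵥ (M *ᵥ u)) * (v ⬝ᵥ (M *ᵥ v)) := by
  classical
  obtain ⟨B, hB⟩ := psd_factor h
  have e1 : ∀ y z : ι → ℝ, y ⬝ᵥ (M *ᵥ z) = ∑ k, (B *ᵥ y) k * (B *ᵥ z) k := by
    intro y z
    rw [hB, ← Matrix.mulVec_mulVec, Matrix.dotProduct_mulVec, Matrix.vecMul_transpose]
    rfl
  rw [e1, e1, e1]
  have := Finset.sum_mul_sq_le_sq_mul_sq Finset.univ (fun k => (B *ᵥ u) k) (fun k => (B *ᵥ v) k)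
  simpa only [← sq] using this

theorem tendsto_entry {M : X → Matrix ι ι ℝ} {M0 : Matrix ι ι ℝ} (hM : Tendsto M G (𝓝 M0))
    (i j : ι) : Tendsto (fun v => M v i j) G (𝓝 (M0 i j)) := by
  have hc : Continuous fun A : Matrix ι ι ℝ => A i j := by fun_prop
  exact (hc.tendsto M0).comp hM

theorem tendsto_mulVec {Z : Type*} {E : Filter Z} {M : Z → Matrix ι ι ℝ} {M0 : Matrix ι ι ℝ}
    {y : Z → ι → ℝ} {y0 : ι → ℝ} (hM : Tendsto M E (𝓝 M0)) (hy : Tendsto y E (𝓝 y0)) :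
    Tendsto (fun z => M z *ᵥ y z) E (𝓝 (M0 *ᵥ y0)) := by
  have hc : Continuous fun p : Matrix ι ι ℝ × (ι → ℝ) => p.1 *ᵥ p.2 :=
    Continuous.matrix_mulVec continuous_fst continuous_snd
  exact (hc.tendsto (M0, y0)).comp (hM.prodMk_nhds hy)

theorem germ_pairX {M : X → Matrix ι ι ℝ} {M0 : Matrix ι ι ℝ} (hM : Tendsto M G (𝓝 M0))
    {ξ : L → ι → ℝ} {ξ0 : ι → ℝ} (hξ : Tendsto ξ F (𝓝 ξ0)) (w : ι → ℝ) :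
    GermFR F G (fun u v => w ⬝ᵥ (M v *ᵥ ξ u)) (w ⬝ᵥ (M0 *ᵥ ξ0)) := by
  have h1 : GermFR F G (fun u v => ∑ i, ∑ j, w i * (ξ u j * M v i j))
      (∑ i, ∑ j, w i * (ξ0 j * M0 i j)) :=
    GermFR.sum _ fun i _ => GermFR.sum _ fun j _ => (GermFR.mulfun
      (((continuous_apply j).tendsto ξ0).comp hξ) (tendsto_entry hM i j)).smul (w i)
  refine h1.congr (fun u v => ?_) ?_
  · rw [dot_mulVec_eq]
    exact Finset.sum_congr rfl fun i _ => Finset.sum_congr rfl fun j _ => by ring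
  · rw [dot_mulVec_eq]
    exact Finset.sum_congr rfl fun i _ => Finset.sum_congr rfl fun j _ => by ring

theorem dom_pairH {HL : L → Matrix ι ι ℝ} {HX : X → Matrix ι ι ℝ} {Q : L → X → ℝ}
    (hQ : SosF F G Q) (N1 : ∀ i j, Dom F G (fun u v => HX v i j - HL u i j) Q)
    {ξ : L → ι → ℝ} {ξ0 : ι → ℝ} (hξ : Tendsto ξ F (𝓝 ξ0)) (w : ι → ℝ) :
    Dom F G (fun u v => w ⬝ᵥ ((HX v - HL u) *ᵥ ξ u)) Q := by
  have h1 : Dom F G (fun u v => ∑ i, ∑ j, (w i * ξ u j) * (HX v i j - HL u i j)) Q := by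
    refine Dom.sum _ hQ fun i _ => Dom.sum _ hQ fun j _ => (N1 i j).germ
      ((GermFR.left (((continuous_apply j).tendsto ξ0).comp hξ)).smul (w i))
  refine h1.congr' fun u v => ?_
  rw [dot_mulVec_eq]
  exact Finset.sum_congr rfl fun i _ => Finset.sum_congr rfl fun j _ => by
    rw [Matrix.sub_apply]; ring

end Aux

/-- The frame: a real symmetric pencil along two ultrafilters, functional side `L` (with the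
kernel vector `ξ`), point side `X`. -/
structure PF {L X : Type*} (U : Ultrafilter L) (V : Ultrafilter X) (ι : Type*) [Fintype ι]
    [DecidableEq ι] where
  B : Matrix ι ι ℝ
  D : Matrix ι ι ℝ
  G1 : Matrix ι ι ℝ
  G2 : Matrix ι ι ℝ
  xL : L → ℝ
  bL : L → ℝ
  aL : L → ℝ
  xX : X → ℝ
  bX : X → ℝ
  aX : X → ℝ
  HL : L → Matrix ι ι ℝ
  HX : X → Matrix ι ι ℝ
  ξ : L → ι → ℝ
  ξ0 : ι → ℝ
  hB : B.IsHermitian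
  hD : D.PosSemidef
  hG : G1.IsHermitian
  txL : Tendsto xL U (𝓝 0)
  tbL : Tendsto bL U (𝓝 0)
  taL : Tendsto aL U (𝓝 0)
  txX : Tendsto xX V (𝓝 0)
  tbX : Tendsto bX V (𝓝 0)
  taX : Tendsto aX V (𝓝 0)
  tHL : Tendsto HL U (𝓝 G2)
  tHX : Tendsto HX V (𝓝 G2)
  psdL : ∀ᶠ u in (U : Filter L), (pen B D G1 (xL u) (bL u) (aL u) (HL u)).PosSemidef
  psdX : ∀ᶠ v in (V : Filter X), (pen B D G1 (xX v) (bX v) (aX v) (HX v)).PosSemidef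
  ker : ∀ᶠ u in (U : Filter L), pen B D G1 (xL u) (bL u) (aL u) (HL u) *ᵥ ξ u = 0
  nrm : ∀ᶠ u in (U : Filter L), ξ0 ⬝ᵥ ξ u = 1
  tξ : Tendsto ξ U (𝓝 ξ0)
  hD0 : D *ᵥ ξ0 = 0
  hB0 : B *ᵥ ξ0 = 0
  hg0 : ξ0 ⬝ᵥ (G1 *ᵥ ξ0) = 0
  hγ : ξ0 ⬝ᵥ (G2 *ᵥ ξ0) = 0
  N1 : ∀ i j, Dom (U : Filter L) (V : Filter X) (fun u v => HX v i j - HL u i j)
      (fun u v => (aX v - aL u) ^ 2)

namespace PF

variable {L X ι : Type*} [Fintype ι] [DecidableEq ι] {U : Ultrafilter L} {V : Ultrafilter X}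
  (R : PF U V ι)

/-- the pencil on the point side -/
def MX (v : X) : Matrix ι ι ℝ := pen R.B R.D R.G1 (R.xX v) (R.bX v) (R.aX v) (R.HX v)

/-- `|F|² = ξᵀ M ξ` -/
def Φ (u : L) (v : X) : ℝ := R.ξ u ⬝ᵥ (R.MX v *ᵥ R.ξ u)

/-- `α = a' - a` -/
def al (u : L) (v : X) : ℝ := R.aX v - R.aL u

/-- `g = G₁ ξ₀` -/
def g : ι → ℝ := R.G1 *ᵥ R.ξ0

theorem psdX' : ∀ᶠ v in (V : Filter X), (R.MX v).PosSemidef := R.psdX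

theorem sosΦ : SosF (U : Filter L) (V : Filter X) R.Φ := sosF_form R.psdX R.ξ

theorem sosal : SosF (U : Filter L) (V : Filter X) (fun u v => R.al u v ^ 2) :=
  SosF.sq ((FR.right R.aX).sub (FR.left R.aL))

theorem n0 : R.ξ0 ⬝ᵥ R.ξ0 = 1 := by
  have h1 : Tendsto (fun u => R.ξ0 ⬝ᵥ R.ξ u) U (𝓝 (R.ξ0 ⬝ᵥ R.ξ0)) :=
    tendsto_dot tendsto_const_nhds R.tξ
  have h2 : Tendsto (fun u => R.ξ0 ⬝ᵥ R.ξ u) U (𝓝 1) :=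
    tendsto_const_nhds.congr' (by filter_upwards [R.nrm] with u hu using hu.symm)
  exact tendsto_nhds_unique h1 h2

theorem MX_form (v : X) (w y : ι → ℝ) :
    w ⬝ᵥ (R.MX v *ᵥ y) = R.xX v * (w ⬝ᵥ y) + R.bX v * (w ⬝ᵥ (R.B *ᵥ y)) + w ⬝ᵥ (R.D *ᵥ y) +
      R.aX v * (w ⬝ᵥ (R.G1 *ᵥ y)) + R.aX v ^ 2 * (w ⬝ᵥ (R.HX v *ᵥ y)) := pen_form _ _ _ _ _ _ _ _ _

theorem row (w : ι → ℝ) : ∀ᶠ u in (U : Filter L),
    R.xL u * (w ⬝ᵥ R.ξ u) + R.bL u * (w ⬝ᵥ (R.B *ᵥ R.ξ u)) + w ⬝ᵥ (R.D *ᵥ R.ξ u) +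
      R.aL u * (w ⬝ᵥ (R.G1 *ᵥ R.ξ u)) + R.aL u ^ 2 * (w ⬝ᵥ (R.HL u *ᵥ R.ξ u)) = 0 := by
  filter_upwards [R.ker] with u hu
  rw [← pen_form, hu, dotProduct_zero]

/-- the difference equation for `⟨w, U⟩` -/
theorem exp {u : L} (hu : pen R.B R.D R.G1 (R.xL u) (R.bL u) (R.aL u) (R.HL u) *ᵥ R.ξ u = 0)
    (v : X) (w : ι → ℝ) :
    w ⬝ᵥ (R.MX v *ᵥ R.ξ u) = (R.xX v - R.xL u) * (w ⬝ᵥ R.ξ u) +
        (R.bX v - R.bL u) * (w ⬝ᵥ (R.B *ᵥ R.ξ u)) +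
        (R.aX v - R.aL u) * (w ⬝ᵥ (R.G1 *ᵥ R.ξ u)) +
        (R.aX v ^ 2 - R.aL u ^ 2) * (w ⬝ᵥ (R.HL u *ᵥ R.ξ u)) +
        R.aX v ^ 2 * (w ⬝ᵥ ((R.HX v - R.HL u) *ᵥ R.ξ u)) := by
  have h3 : w ⬝ᵥ (pen R.B R.D R.G1 (R.xL u) (R.bL u) (R.aL u) (R.HL u) *ᵥ R.ξ u) = 0 := by
    rw [hu, dotProduct_zero]
  rw [pen_form] at h3
  rw [MX_form, Matrix.sub_mulVec, dotProduct_sub]
  linear_combination h3

theorem sB0 (y : ι → ℝ) : R.ξ0 ⬝ᵥ (R.B *ᵥ y) = 0 := by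
  rw [herm_swap R.hB, R.hB0, dotProduct_zero]

theorem sD0 (y : ι → ℝ) : R.ξ0 ⬝ᵥ (R.D *ᵥ y) = 0 := by
  rw [herm_swap R.hD.1, R.hD0, dotProduct_zero]

theorem sG0 (y : ι → ℝ) : R.ξ0 ⬝ᵥ (R.G1 *ᵥ y) = y ⬝ᵥ R.g := herm_swap R.hG _ _

theorem tc (M : Matrix ι ι ℝ) (w : ι → ℝ) :
    Tendsto (fun u => w ⬝ᵥ (M *ᵥ R.ξ u)) U (𝓝 (w ⬝ᵥ (M *ᵥ R.ξ0))) :=
  tendsto_form tendsto_const_nhds tendsto_const_nhds R.tξ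

theorem tHc (w : ι → ℝ) :
    Tendsto (fun u => w ⬝ᵥ (R.HL u *ᵥ R.ξ u)) U (𝓝 (w ⬝ᵥ (R.G2 *ᵥ R.ξ0))) :=
  tendsto_form tendsto_const_nhds R.tHL R.tξ

theorem tdot (w : ι → ℝ) : Tendsto (fun u => w ⬝ᵥ R.ξ u) U (𝓝 (w ⬝ᵥ R.ξ0)) :=
  tendsto_dot tendsto_const_nhds R.tξ

theorem tg : Tendsto (fun u => R.ξ u ⬝ᵥ R.g) U (𝓝 0) := by
  have := tendsto_dot R.tξ (tendsto_const_nhds (x := R.g))
  rwa [show R.ξ0 ⬝ᵥ R.g = 0 from R.hg0] at this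

/-- `D ξ / ε → 0` if `x/a → 0`, `a/ε → 0` and `B ξ / ε` converges -/
theorem tDε (apos : ∀ᶠ u in (U : Filter L), 0 < R.aL u)
    (txa : Tendsto (fun u => R.xL u / R.aL u) U (𝓝 0))
    {ε : L → ℝ} (epos : ∀ᶠ u in (U : Filter L), 0 < ε u) {h : ι → ℝ}
    (tBε : Tendsto (fun u => (ε u)⁻¹ • (R.B *ᵥ R.ξ u)) U (𝓝 h))
    (taε : Tendsto (fun u => R.aL u / ε u) U (𝓝 0)) :
    Tendsto (fun u => (ε u)⁻¹ • (R.D *ᵥ R.ξ u)) U (𝓝 0) := by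
  have hcG : Tendsto (fun u => R.G1 *ᵥ R.ξ u) U (𝓝 (R.G1 *ᵥ R.ξ0)) :=
    tendsto_mulVec tendsto_const_nhds R.tξ
  have hcH : Tendsto (fun u => R.HL u *ᵥ R.ξ u) U (𝓝 (R.G2 *ᵥ R.ξ0)) :=
    tendsto_mulVec R.tHL R.tξ
  have h1 : Tendsto (fun u => -((R.xL u / R.aL u * (R.aL u / ε u)) • R.ξ u +
      R.bL u • ((ε u)⁻¹ • (R.B *ᵥ R.ξ u)) + (R.aL u / ε u) • (R.G1 *ᵥ R.ξ u) +
      (R.aL u * (R.aL u / ε u)) • (R.HL u *ᵥ R.ξ u))) U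
      (𝓝 (-(((0 : ℝ) * 0) • R.ξ0 + (0 : ℝ) • h + (0 : ℝ) • (R.G1 *ᵥ R.ξ0) +
        ((0 : ℝ) * 0) • (R.G2 *ᵥ R.ξ0)))) :=
    (((((txa.mul taε).smul R.tξ).add (R.tbL.smul tBε)).add (taε.smul hcG)).add
      ((R.taL.mul taε).smul hcH)).neg
  have h0 : -(((0 : ℝ) * 0) • R.ξ0 + (0 : ℝ) • h + (0 : ℝ) • (R.G1 *ᵥ R.ξ0) +
      ((0 : ℝ) * 0) • (R.G2 *ᵥ R.ξ0)) = 0 := by simp
  rw [h0] at h1
  refine h1.congr' ?_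
  filter_upwards [R.ker, apos, epos] with u hu ha he
  have h2 := hu
  rw [pen_mulVec] at h2
  have h3 : R.D *ᵥ R.ξ u = -(R.xL u • R.ξ u + R.bL u • (R.B *ᵥ R.ξ u) +
      R.aL u • (R.G1 *ᵥ R.ξ u) + (R.aL u ^ 2) • (R.HL u *ᵥ R.ξ u)) := by
    rw [eq_neg_iff_add_eq_zero, ← h2]; abel
  rw [h3, smul_neg, smul_add, smul_add, smul_add, smul_smul, smul_smul,
    smul_smul, smul_smul, smul_smul]
  have a' := ha.ne'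
  have e' := he.ne'
  have r1 : R.xL u / R.aL u * (R.aL u / ε u) = (ε u)⁻¹ * R.xL u := by field_simp
  have r2 : R.bL u * (ε u)⁻¹ = (ε u)⁻¹ * R.bL u := mul_comm _ _
  have r3 : R.aL u / ε u = (ε u)⁻¹ * R.aL u := by field_simp
  have r4 : R.aL u * (R.aL u / ε u) = (ε u)⁻¹ * R.aL u ^ 2 := by field_simp
  rw [r4, r1, r2, r3]

theorem pinL {k : ι → ℝ} (hk : R.D *ᵥ k = R.g) {κ : ℝ} (hκ : 0 < κ) (hκe : k ⬝ᵥ R.g = κ) :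
    ∀ᶠ u in (U : Filter L), κ / 4 * R.aL u ^ 2 ≤ R.xL u :=
  pinch R.hB R.hD.1 R.hG R.tbL R.taL R.tHL R.psdL R.n0 R.hD0 R.hB0 R.hg0 R.hγ hk hκ hκe

theorem pinX {k : ι → ℝ} (hk : R.D *ᵥ k = R.g) {κ : ℝ} (hκ : 0 < κ) (hκe : k ⬝ᵥ R.g = κ) :
    ∀ᶠ v in (V : Filter X), κ / 4 * R.aX v ^ 2 ≤ R.xX v :=
  pinch R.hB R.hD.1 R.hG R.tbX R.taX R.tHX R.psdX R.n0 R.hD0 R.hB0 R.hg0 R.hγ hk hκ hκe

end PF

end Vale.Agent.P256.H201
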