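import Vale.Agent.P256.H201.Core
import Vale.Agent.P256.H387.LMR

/-! Linear algebra for real symmetric pencils, and kernel inequalities with one-sided vectors. -/

set_option linter.all false

namespace Vale.Agent.P256.H201

open Filter Topology Matrix Vale.Agent.P256 Vale.Agent.P256.H326 Vale.Agent.P256.H387

section Lin

variable {ι : Type*} [Fintype ι]

theorem mem_of_orth (W : Submodule ℝ (ι → ℝ)) (h : ι → ℝ)
    (H : ∀ z : ι → ℝ, (∀ w ∈ W, z ⬝ᵥ w = 0) → z ⬝ᵥ h = 0) : h ∈ W := by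
  classical
  by_contra hn
  obtain ⟨f, hf, hW⟩ := Submodule.exists_le_ker_of_notMem hn
  have hz : ∀ v, f v = (fun i => f (Pi.single i 1)) ⬝ᵥ v := by
    intro v
    have hv : v = ∑ j, v j • (Pi.single j (1 : ℝ) : ι → ℝ) := by
      ext i
      simp [Finset.sum_apply, Pi.single_apply]
    conv_lhs => rw [hv]
    rw [map_sum]
    simp only [map_smul, smul_eq_mul, dotProduct]
    exact Finset.sum_congr rfl fun j _ => by ring
  refine hf ((hz h).trans (H _ fun w hw => (hz w).symm.trans (hW hw)))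

theorem zero_of_orth {M : Matrix ι ι ℝ} (hM : M.IsHermitian) {z : ι → ℝ}
    (h : ∀ w : ι → ℝ, z ⬝ᵥ (M *ᵥ w) = 0) : M *ᵥ z = 0 := by
  have h1 := h (M *ᵥ z)
  rw [herm_swap hM, ] at h1
  rw [← dotProduct_self_eq_zero]
  have h2 : (M *ᵥ z) ⬝ᵥ (M *ᵥ z) = z ⬝ᵥ (M *ᵥ (M *ᵥ z)) := by
    rw [herm_swap hM z (M *ᵥ z)]
  rw [h2]; exact h _

theorem exists_preimage {M : Matrix ι ι ℝ} (hM : M.IsHermitian) {g : ι → ℝ}
    (h : ∀ w : ι → ℝ, M *ᵥ w = 0 → w ⬝ᵥ g = 0) : ∃ k : ι → ℝ, M *ᵥ k = g := by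
  have h1 : g ∈ LinearMap.range M.mulVecLin := by
    refine mem_of_orth _ _ fun z hz => h z (zero_of_orth hM fun w => ?_)
    exact hz _ ⟨w, rfl⟩
  obtain ⟨k, hk⟩ := h1
  exact ⟨k, hk⟩

theorem zero_of_quad {c n : ℝ} (hn : 0 ≤ n) (h : ∀ t : ℝ, 0 ≤ 2 * t * c + t ^ 2 * n) : c = 0 := by
  by_contra hc
  have hc2 : 0 < c ^ 2 := by positivity
  have h1 := h (-c / (n + 1))
  have hn1 : 0 < n + 1 := by linarith
  have e : 2 * (-c / (n + 1)) * c + (-c / (n + 1)) ^ 2 * n =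
      -(c ^ 2 * (n + 2)) / (n + 1) ^ 2 := by
    field_simp; ring
  rw [e] at h1
  have h2 : -(c ^ 2 * (n + 2)) / (n + 1) ^ 2 < 0 := by
    apply div_neg_of_neg_of_pos
    · nlinarith
    · positivity
  linarith

/-- a vector in the kernel of a form which is positive on a subspace is orthogonal to the
subspace -/
theorem cross_zero {E : Submodule ℝ (ι → ℝ)} {N : Matrix ι ι ℝ} (hN : N.IsHermitian)
    (hpos : ∀ v ∈ E, 0 ≤ v ⬝ᵥ (N *ᵥ v)) {z w : ι → ℝ} (hz : z ∈ E) (hw : w ∈ E)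
    (h0 : z ⬝ᵥ (N *ᵥ z) = 0) : w ⬝ᵥ (N *ᵥ z) = 0 := by
  refine zero_of_quad (n := w ⬝ᵥ (N *ᵥ w)) (hpos w hw) fun t => ?_
  have h1 := hpos (z + t • w) (E.add_mem hz (E.smul_mem t hw))
  have h2 : (z + t • w) ⬝ᵥ (N *ᵥ (z + t • w)) =
      z ⬝ᵥ (N *ᵥ z) + 2 * t * (w ⬝ᵥ (N *ᵥ z)) + t ^ 2 * (w ⬝ᵥ (N *ᵥ w)) := by
    rw [Matrix.mulVec_add, Matrix.mulVec_smul]
    simp only [add_dotProduct, dotProduct_add, smul_dotProduct, dotProduct_smul, smul_eq_mul]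
    rw [herm_swap hN z w]
    ring
  rw [h2, h0] at h1
  linarith

theorem herm_comb {B G : Matrix ι ι ℝ} (hB : B.IsHermitian) (hG : G.IsHermitian) (b a : ℝ) :
    (b • B + a • G).IsHermitian := by
  unfold Matrix.IsHermitian
  rw [conjTranspose_add, conjTranspose_smul, conjTranspose_smul, hB, hG]
  simp

theorem form_comb (B G : Matrix ι ι ℝ) (b a : ℝ) (u v : ι → ℝ) :
    u ⬝ᵥ ((b • B + a • G) *ᵥ v) = b * (u ⬝ᵥ (B *ᵥ v)) + a * (u ⬝ᵥ (G *ᵥ v)) := by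
  rw [Matrix.add_mulVec, Matrix.smul_mulVec, Matrix.smul_mulVec, dotProduct_add,
    dotProduct_smul, dotProduct_smul, smul_eq_mul, smul_eq_mul]

/-- the correction `v₁` of the second kernel vector -/
theorem exists_corr {B D G1 : Matrix ι ι ℝ} (hB : B.IsHermitian) (hD : D.IsHermitian)
    (hG : G1.IsHermitian) {b1 a1 : ℝ} (ha1 : 0 < a1)
    (NC : ∀ v : ι → ℝ, D *ᵥ v = 0 → 0 ≤ b1 * (v ⬝ᵥ (B *ᵥ v)) + a1 * (v ⬝ᵥ (G1 *ᵥ v)))
    {e0 : ι → ℝ} (he : D *ᵥ e0 = 0) :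
    ∃ v1 w w' : ι → ℝ, D *ᵥ v1 = 0 ∧ B *ᵥ v1 = 0 ∧ G1 *ᵥ (e0 + v1) = D *ᵥ w + B *ᵥ w' := by
  set EL : Submodule ℝ (ι → ℝ) := LinearMap.ker D.mulVecLin ⊓ LinearMap.ker B.mulVecLin with hEL
  have h1 : G1 *ᵥ e0 ∈ (EL.map G1.mulVecLin ⊔ LinearMap.range D.mulVecLin) ⊔
      LinearMap.range B.mulVecLin := by
    refine mem_of_orth _ _ fun z hz => ?_
    have hDz : D *ᵥ z = 0 := zero_of_orth hD fun w =>
      hz _ (Submodule.mem_sup_left (Submodule.mem_sup_right ⟨w, rfl⟩))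
    have hBz : B *ᵥ z = 0 := zero_of_orth hB fun w => hz _ (Submodule.mem_sup_right ⟨w, rfl⟩)
    have hzz : z ⬝ᵥ (G1 *ᵥ z) = 0 :=
      hz _ (Submodule.mem_sup_left (Submodule.mem_sup_left ⟨z, ⟨hDz, hBz⟩, rfl⟩))
    have h2 := cross_zero (E := LinearMap.ker D.mulVecLin) (herm_comb hB hG b1 a1)
      (fun v hv => by rw [form_comb]; exact NC v hv) (z := z) (w := e0) hDz he
      (by rw [form_comb, hBz, hzz]; simp)
    rw [form_comb, hBz, dotProduct_zero, mul_zero, zero_add] at h2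
    have h3 : e0 ⬝ᵥ (G1 *ᵥ z) = 0 := (mul_eq_zero.1 h2).resolve_left ha1.ne'
    rw [herm_swap hG]; exact h3
  obtain ⟨x, hx, y, ⟨w', hw'⟩, hxy⟩ := Submodule.mem_sup.1 h1
  obtain ⟨x1, ⟨v, hv, hv'⟩, x2, ⟨w, hw⟩, hx12⟩ := Submodule.mem_sup.1 hx
  refine ⟨-v, w, w', ?_, ?_, ?_⟩
  · rw [Matrix.mulVec_neg, show D *ᵥ v = 0 from hv.1, neg_zero]
  · rw [Matrix.mulVec_neg, show B *ᵥ v = 0 from hv.2, neg_zero]
  · rw [Matrix.mulVec_add, Matrix.mulVec_neg, ← hxy, ← hx12]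
    have e1 : x1 = G1 *ᵥ v := hv'.symm
    have e2 : x2 = D *ᵥ w := hw.symm
    have e3 : y = B *ᵥ w' := hw'.symm
    rw [e1, e2, e3]
    abel

/-- limits stay in the range -/
theorem exists_limit {L : Type*} {F : Filter L} [F.NeBot] (D B : Matrix ι ι ℝ) (f : L → ι → ℝ)
    {h h' : ι → ℝ} (hD : Tendsto (fun u => D *ᵥ f u) F (𝓝 h))
    (hB : Tendsto (fun u => B *ᵥ f u) F (𝓝 h')) : ∃ e : ι → ℝ, D *ᵥ e = h ∧ B *ᵥ e = h' := by
  set T : (ι → ℝ) →ₗ[ℝ] (ι → ℝ) × (ι → ℝ) := D.mulVecLin.prod B.mulVecLin with hT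
  have hcl : IsClosed ((LinearMap.range T : Submodule ℝ ((ι → ℝ) × (ι → ℝ))) :
      Set ((ι → ℝ) × (ι → ℝ))) := Submodule.closed_of_finiteDimensional _
  have ht : Tendsto (fun u => T (f u)) F (𝓝 (h, h')) := hD.prodMk_nhds hB
  have hmem : (h, h') ∈ ((LinearMap.range T : Submodule ℝ ((ι → ℝ) × (ι → ℝ))) :
      Set ((ι → ℝ) × (ι → ℝ))) :=
    hcl.mem_of_tendsto ht (Eventually.of_forall fun u => ⟨f u, rfl⟩)
  obtain ⟨e, he⟩ := hmem
  exact ⟨e, congrArg Prod.fst he, congrArg Prod.snd he⟩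

end Lin

section Kern

variable {L X : Type*} {F : Filter L} {G : Filter X} {ι : Type*} [Fintype ι]

theorem fr_pair (M : X → Matrix ι ι ℝ) (w : X → ι → ℝ) (ξ : L → ι → ℝ) :
    FR (fun u v => w v ⬝ᵥ (M v *ᵥ ξ u)) := by
  have h1 : FR (fun u v => ∑ i, ∑ j, (M v i j * w v i) * ξ u j) :=
    FR.sum _ fun i _ => FR.sum _ fun j _ =>
      (FR.mulfun (fun u => ξ u j) (fun v => M v i j * w v i)).congr fun u v => by ring
  exact h1.congr fun u v => dot_mulVec_eq _ _ _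

theorem sosF_form {M : X → Matrix ι ι ℝ} (hM : ∀ᶠ v in G, (M v).PosSemidef) (ξ : L → ι → ℝ) :
    SosF F G (fun u v => ξ u ⬝ᵥ (M v *ᵥ ξ u)) :=
  (sosF_psd (F := F) hM ξ).congr' fun u v => dot_mulVec_eq _ _ _

/-- Cauchy-Schwarz with a vector depending on the point side -/
theorem sosF_csX {M : X → Matrix ι ι ℝ} (hM : ∀ᶠ x in G, (M x).PosSemidef) (w : X → ι → ℝ)
    (ξ : L → ι → ℝ) :
    SosF F G (fun u v => (w v ⬝ᵥ (M v *ᵥ w v)) * (ξ u ⬝ᵥ (M v *ᵥ ξ u)) -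
      (w v ⬝ᵥ (M v *ᵥ ξ u)) ^ 2) := by
  classical
  have hc : ∀ x, ∃ B : Matrix ι ι ℝ, (M x).PosSemidef → M x = Bᵀ * B := by
    intro x
    by_cases h : (M x).PosSemidef
    · obtain ⟨B, hB⟩ := psd_factor h
      exact ⟨B, fun _ => hB⟩
    · exact ⟨0, fun h' => absurd h' h⟩
  choose B hB using hc
  have hfr : ∀ k : ι, FR (fun u v => (B v *ᵥ ξ u) k) := by
    intro k
    show FR (fun u v => ∑ i, B v k i * ξ u i)
    refine FR.sum _ fun i _ => ?_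
    exact (FR.mulfun (fun u => ξ u i) (fun v => B v k i)).congr fun u v => by ring
  have h1 : SosF F G (fun u v => ∑ k, ∑ k', 1 / 2 *
      ((B v *ᵥ w v) k * (B v *ᵥ ξ u) k' - (B v *ᵥ w v) k' * (B v *ᵥ ξ u) k) ^ 2) := by
    refine SosF.sum _ fun k _ => SosF.sum _ fun k' _ => SosF.smul (by norm_num) (SosF.sq ?_)
    exact ((FR.right (fun v => (B v *ᵥ w v) k)).mul (hfr k')).sub
      ((FR.right (fun v => (B v *ᵥ w v) k')).mul (hfr k))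
  refine h1.congr (EqF.of_eventually (fun _ => True) (fun x => (M x).PosSemidef) (by simp) hM ?_)
  intro u v _ hv
  have e1 : ∀ y z : ι → ℝ, y ⬝ᵥ (M v *ᵥ z) = ∑ k, (B v *ᵥ y) k * (B v *ᵥ z) k := by
    intro y z
    rw [hB v hv, ← Matrix.mulVec_mulVec, Matrix.dotProduct_mulVec, Matrix.vecMul_transpose]
    rfl
  rw [e1, e1, e1]
  set a : ι → ℝ := B v *ᵥ w v
  set b : ι → ℝ := B v *ᵥ ξ u
  have e2 : ∑ k, ∑ k', 1 / 2 * (a k * b k' - a k' * b k) ^ 2 =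
      (∑ k, a k * a k) * (∑ k, b k * b k) - (∑ k, a k * b k) ^ 2 := by
    have h3 : ∀ k k', 1 / 2 * (a k * b k' - a k' * b k) ^ 2 =
        1 / 2 * (a k * a k) * (b k' * b k') + 1 / 2 * (b k * b k) * (a k' * a k') -
          (a k * b k) * (a k' * b k') := fun k k' => by ring
    simp only [h3, Finset.sum_sub_distrib, Finset.sum_add_distrib, ← Finset.mul_sum,
      ← Finset.sum_mul]
    ring
  rw [e2]

theorem dom_pair {M : X → Matrix ι ι ℝ} (hM : ∀ᶠ x in G, (M x).PosSemidef) (w : X → ι → ℝ)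
    (ξ : L → ι → ℝ) {C : ℝ} (hC : 0 < C) (hw : ∀ᶠ v in G, w v ⬝ᵥ (M v *ᵥ w v) ≤ C) :
    Dom F G (fun u v => w v ⬝ᵥ (M v *ᵥ ξ u)) (fun u v => ξ u ⬝ᵥ (M v *ᵥ ξ u)) := by
  refine ⟨fr_pair M w ξ, C, hC, ?_⟩
  have h1 : SosF F G (fun (_ : L) v => C - w v ⬝ᵥ (M v *ᵥ w v)) :=
    SosF.right (by filter_upwards [hw] with v hv; linarith)
  refine ((h1.mul (sosF_form (F := F) hM ξ)).add (sosF_csX (F := F) hM w ξ)).congr'
    fun u v => ?_
  ring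

end Kern

end Vale.Agent.P256.H201
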