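import Vale.Agent.P256.H201.Lin

/-! Real symmetric pencils `x 1 + b B + D + a G₁ + a² H`: expansion and the pinch lemma. -/

set_option linter.all false

namespace Vale.Agent.P256.H201

open Filter Topology Matrix Vale.Agent.P256 Vale.Agent.P256.H326 Vale.Agent.P256.H387

variable {ι : Type*} [Fintype ι] [DecidableEq ι]

/-- the pencil -/
def pen (B D G1 : Matrix ι ι ℝ) (x b a : ℝ) (H : Matrix ι ι ℝ) : Matrix ι ι ℝ :=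
  x • (1 : Matrix ι ι ℝ) + b • B + D + a • G1 + (a ^ 2) • H

theorem pen_mulVec (B D G1 : Matrix ι ι ℝ) (x b a : ℝ) (H : Matrix ι ι ℝ) (v : ι → ℝ) :
    pen B D G1 x b a H *ᵥ v =
      x • v + b • (B *ᵥ v) + D *ᵥ v + a • (G1 *ᵥ v) + (a ^ 2) • (H *ᵥ v) := by
  unfold pen
  simp only [Matrix.add_mulVec, Matrix.smul_mulVec, Matrix.one_mulVec]

theorem pen_form (B D G1 : Matrix ι ι ℝ) (x b a : ℝ) (H : Matrix ι ι ℝ) (u v : ι → ℝ) :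
    u ⬝ᵥ (pen B D G1 x b a H *ᵥ v) = x * (u ⬝ᵥ v) + b * (u ⬝ᵥ (B *ᵥ v)) + u ⬝ᵥ (D *ᵥ v) +
      a * (u ⬝ᵥ (G1 *ᵥ v)) + a ^ 2 * (u ⬝ᵥ (H *ᵥ v)) := by
  rw [pen_mulVec]
  simp only [dotProduct_add, dotProduct_smul, smul_eq_mul]

theorem tendsto_form {Z : Type*} {F : Filter Z} {y y' : Z → ι → ℝ} {M : Z → Matrix ι ι ℝ}
    {y0 y0' : ι → ℝ} {M0 : Matrix ι ι ℝ} (hy : Tendsto y F (𝓝 y0)) (hM : Tendsto M F (𝓝 M0))
    (hy' : Tendsto y' F (𝓝 y0')) :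
    Tendsto (fun z => y z ⬝ᵥ (M z *ᵥ y' z)) F (𝓝 (y0 ⬝ᵥ (M0 *ᵥ y0'))) := by
  have hc : Continuous fun p : (ι → ℝ) × Matrix ι ι ℝ × (ι → ℝ) => p.1 ⬝ᵥ (p.2.1 *ᵥ p.2.2) :=
    Continuous.dotProduct continuous_fst
      (Continuous.matrix_mulVec continuous_snd.fst continuous_snd.snd)
  exact (hc.tendsto (y0, M0, y0')).comp (hy.prodMk_nhds (hM.prodMk_nhds hy'))

theorem tendsto_dot {Z : Type*} {F : Filter Z} {y y' : Z → ι → ℝ} {y0 y0' : ι → ℝ}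
    (hy : Tendsto y F (𝓝 y0)) (hy' : Tendsto y' F (𝓝 y0')) :
    Tendsto (fun z => y z ⬝ᵥ y' z) F (𝓝 (y0 ⬝ᵥ y0')) := by
  have hc : Continuous fun p : (ι → ℝ) × (ι → ℝ) => p.1 ⬝ᵥ p.2 :=
    Continuous.dotProduct continuous_fst continuous_snd
  exact (hc.tendsto (y0, y0')).comp (hy.prodMk_nhds hy')

/-- **Pinch lemma**: `x ≥ (κ/4) a²` near the point. -/
theorem pinch {Z : Type*} {F : Filter Z} {B D G1 G2 : Matrix ι ι ℝ} (hB : B.IsHermitian)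
    (hD : D.IsHermitian) (hG : G1.IsHermitian) {x b a : Z → ℝ} {H : Z → Matrix ι ι ℝ}
    (hb : Tendsto b F (𝓝 0)) (ha : Tendsto a F (𝓝 0)) (hH : Tendsto H F (𝓝 G2))
    (hpsd : ∀ᶠ z in F, (pen B D G1 (x z) (b z) (a z) (H z)).PosSemidef) {ξ0 k : ι → ℝ}
    (h1 : ξ0 ⬝ᵥ ξ0 = 1) (hD0 : D *ᵥ ξ0 = 0) (hB0 : B *ᵥ ξ0 = 0) (hg0 : ξ0 ⬝ᵥ (G1 *ᵥ ξ0) = 0)
    (hγ : ξ0 ⬝ᵥ (G2 *ᵥ ξ0) = 0) (hk : D *ᵥ k = G1 *ᵥ ξ0) {κ : ℝ} (hκ : 0 < κ)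
    (hκe : k ⬝ᵥ (G1 *ᵥ ξ0) = κ) :
    ∀ᶠ z in F, κ / 4 * a z ^ 2 ≤ x z := by
  set w : Z → ι → ℝ := fun z => ξ0 - a z • k with hw
  have tw : Tendsto w F (𝓝 ξ0) := by
    have : Tendsto (fun z => ξ0 - a z • k) F (𝓝 (ξ0 - (0 : ℝ) • k)) :=
      tendsto_const_nhds.sub (ha.smul_const k)
    simpa using this
  have tA : Tendsto (fun z => w z ⬝ᵥ w z) F (𝓝 1) := by
    have := tendsto_dot tw tw
    rwa [h1] at this
  have tR : Tendsto (fun z => b z * (k ⬝ᵥ (B *ᵥ k)) + a z * (k ⬝ᵥ (G1 *ᵥ k)) +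
      w z ⬝ᵥ (H z *ᵥ w z)) F (𝓝 0) := by
    have := ((hb.mul_const (k ⬝ᵥ (B *ᵥ k))).add (ha.mul_const (k ⬝ᵥ (G1 *ᵥ k)))).add
      (tendsto_form tw hH tw)
    rw [hγ] at this
    simpa using this
  filter_upwards [hpsd, tA.eventually (gt_mem_nhds (show (1 : ℝ) < 2 by norm_num)),
    tA.eventually (lt_mem_nhds (show (0 : ℝ) < 1 by norm_num)),
    tR.eventually (gt_mem_nhds (show (0 : ℝ) < κ / 2 by positivity))] with z hz hA2 hA0 hR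
  have e0 := psd_nonneg hz (w z)
  rw [pen_form] at e0
  have eB : w z ⬝ᵥ (B *ᵥ w z) = a z ^ 2 * (k ⬝ᵥ (B *ᵥ k)) := by
    show (ξ0 - a z • k) ⬝ᵥ (B *ᵥ (ξ0 - a z • k)) = _
    rw [Matrix.mulVec_sub, Matrix.mulVec_smul, hB0, zero_sub]
    simp only [sub_dotProduct, dotProduct_neg, smul_dotProduct, dotProduct_smul, smul_eq_mul]
    rw [herm_swap hB ξ0 k, hB0, dotProduct_zero]
    ring
  have eD : w z ⬝ᵥ (D *ᵥ w z) = a z ^ 2 * κ := by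
    show (ξ0 - a z • k) ⬝ᵥ (D *ᵥ (ξ0 - a z • k)) = _
    rw [Matrix.mulVec_sub, Matrix.mulVec_smul, hD0, zero_sub, hk]
    simp only [sub_dotProduct, dotProduct_neg, smul_dotProduct, dotProduct_smul, smul_eq_mul]
    rw [hg0, hκe]
    ring
  have eG : w z ⬝ᵥ (G1 *ᵥ w z) = -2 * a z * κ + a z ^ 2 * (k ⬝ᵥ (G1 *ᵥ k)) := by
    show (ξ0 - a z • k) ⬝ᵥ (G1 *ᵥ (ξ0 - a z • k)) = _
    rw [Matrix.mulVec_sub, Matrix.mulVec_smul]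
    simp only [sub_dotProduct, dotProduct_sub, smul_dotProduct, dotProduct_smul, smul_eq_mul]
    rw [herm_swap hG ξ0 k, hg0, hκe]
    ring
  rw [eB, eD, eG] at e0
  have e1 : 0 ≤ x z * (w z ⬝ᵥ w z) - a z ^ 2 * κ + a z ^ 2 *
      (b z * (k ⬝ᵥ (B *ᵥ k)) + a z * (k ⬝ᵥ (G1 *ᵥ k)) + w z ⬝ᵥ (H z *ᵥ w z)) := by
    refine e0.trans (le_of_eq ?_); ring
  have e2 : a z ^ 2 * (b z * (k ⬝ᵥ (B *ᵥ k)) + a z * (k ⬝ᵥ (G1 *ᵥ k)) +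
      w z ⬝ᵥ (H z *ᵥ w z)) ≤ a z ^ 2 * (κ / 2) :=
    mul_le_mul_of_nonneg_left hR.le (sq_nonneg _)
  have e3 : a z ^ 2 * (κ / 2) ≤ x z * (w z ⬝ᵥ w z) := by linarith
  have hsq := sq_nonneg (a z)
  have hx : 0 ≤ x z := by
    by_contra hneg
    push Not at hneg
    have : x z * (w z ⬝ᵥ w z) < 0 := mul_neg_of_neg_of_pos hneg hA0
    have h2 : 0 ≤ a z ^ 2 * (κ / 2) := by positivity
    linarith
  have e4 : x z * (w z ⬝ᵥ w z) ≤ x z * 2 := mul_le_mul_of_nonneg_left hA2.le hx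
  nlinarith

/-- bounded functions along an ultrafilter as multiples -/
theorem exists_ratio {Z : Type*} (U : Ultrafilter Z) {f g : Z → ℝ} {C : ℝ}
    (h : ∀ᶠ z in (U : Filter Z), |f z| ≤ C * |g z|) :
    ∃ r0 : ℝ, Tendsto (fun z => f z / g z) U (𝓝 r0) ∧
      ∀ᶠ z in (U : Filter Z), f z = f z / g z * g z := by
  have h1 : ∀ᶠ z in (U : Filter Z), |f z / g z| ≤ |C| := by
    filter_upwards [h] with z hz
    by_cases hg : g z = 0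
    · rw [hg, div_zero, abs_zero]; exact abs_nonneg _
    · rw [abs_div, div_le_iff₀ (abs_pos.2 hg)]
      exact hz.trans (mul_le_mul_of_nonneg_right (le_abs_self C) (abs_nonneg _))
  obtain ⟨r0, -, hr⟩ := exists_tendsto U h1
  refine ⟨r0, hr, ?_⟩
  filter_upwards [h] with z hz
  by_cases hg : g z = 0
  · rw [hg, abs_zero, mul_zero] at hz
    have : f z = 0 := abs_eq_zero.1 (le_antisymm hz (abs_nonneg _))
    rw [this, hg]; simp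
  · rw [div_mul_cancel₀ _ hg]

end Vale.Agent.P256.H201
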